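import Mathlib

/-!
# P069: asymptotic moduli (statement-level definitions)

`aucModulus N t` and `amucModulus N t` are the moduli of the problem file, taken in the
complete lattice `EReal` so that every infimum and supremum is the genuine one.
-/

namespace Vale.Agent.Lib.P069

/-- Closed subspaces of finite codimension. -/
def Cof (X : Type) [NormedAddCommGroup X] [NormedSpace ℝ X] : Set (Submodule ℝ X) :=
  {F | IsClosed (F : Set X) ∧ FiniteDimensional ℝ (X ⧸ F)}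

/-- The modulus of asymptotic uniform convexity of the function `N` at `t`. -/
noncomputable def aucModulus {X : Type} [NormedAddCommGroup X] [NormedSpace ℝ X]
    (N : X → ℝ) (t : ℝ) : EReal :=
  ⨅ x ∈ {x : X | N x = 1}, ⨆ F ∈ Cof X, ⨅ y ∈ {y : X | y ∈ F ∧ N y = 1},
    ((N (x + t • y) - 1 : ℝ) : EReal)

/-- The modulus of asymptotic midpoint uniform convexity of the function `N` at `t`. -/
noncomputable def amucModulus {X : Type} [NormedAddCommGroup X] [NormedSpace ℝ X]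
    (N : X → ℝ) (t : ℝ) : EReal :=
  ⨅ x ∈ {x : X | N x = 1}, ⨆ F ∈ Cof X, ⨅ y ∈ {y : X | y ∈ F ∧ N y = 1},
    ((max (N (x + t • y)) (N (x - t • y)) - 1 : ℝ) : EReal)

/-- `N` is asymptotically uniformly convex. -/
def IsAUC {X : Type} [NormedAddCommGroup X] [NormedSpace ℝ X] (N : X → ℝ) : Prop :=
  ∀ t : ℝ, 0 < t → 0 < aucModulus N t

/-- `N` is asymptotically midpoint uniformly convex. -/
def IsAMUC {X : Type} [NormedAddCommGroup X] [NormedSpace ℝ X] (N : X → ℝ) : Prop :=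
  ∀ t : ℝ, 0 < t → 0 < amucModulus N t

/-- `N` is an equivalent norm on `X`. -/
def IsEquivNorm {X : Type} [NormedAddCommGroup X] [NormedSpace ℝ X] (N : Seminorm ℝ X) : Prop :=
  ∃ c C : ℝ, 0 < c ∧ 0 < C ∧ ∀ x : X, c * ‖x‖ ≤ N x ∧ N x ≤ C * ‖x‖

/-- Sufficient condition for AMUC in epsilon form. -/
theorem isAMUC_of_forall {X : Type} [NormedAddCommGroup X] [NormedSpace ℝ X] (N : X → ℝ)
    (h : ∀ t : ℝ, 0 < t → ∃ c : ℝ, 0 < c ∧ ∀ x : X, N x = 1 → ∃ F ∈ Cof X,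
      ∀ y ∈ F, N y = 1 → 1 + c ≤ max (N (x + t • y)) (N (x - t • y))) :
    IsAMUC N := by
  intro t ht
  obtain ⟨c, hc, hx⟩ := h t ht
  have hc' : (0 : EReal) < ((c : ℝ) : EReal) := by exact_mod_cast hc
  refine lt_of_lt_of_le hc' ?_
  unfold amucModulus
  refine le_iInf₂ fun x hx1 => ?_
  obtain ⟨F, hF, hy⟩ := hx x hx1
  refine le_iSup₂_of_le F hF ?_
  refine le_iInf₂ fun y hy1 => ?_
  have := hy y hy1.1 hy1.2
  exact_mod_cast (by linarith : c ≤ max (N (x + t • y)) (N (x - t • y)) - 1)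

/-- Consequence of AUC in epsilon form. -/
theorem IsAUC.forall {X : Type} [NormedAddCommGroup X] [NormedSpace ℝ X] {N : X → ℝ}
    (h : IsAUC N) (t : ℝ) (ht : 0 < t) : ∃ c : ℝ, 0 < c ∧ ∀ x : X, N x = 1 → ∃ F ∈ Cof X,
      ∀ y ∈ F, N y = 1 → 1 + c ≤ N (x + t • y) := by
  have h0 := h t ht
  obtain ⟨c, hc0, hc⟩ := EReal.lt_iff_exists_real_btwn.mp h0
  refine ⟨c, by exact_mod_cast hc0, fun x hx => ?_⟩
  unfold aucModulus at hc
  have h1 : ((c : ℝ) : EReal) < ⨆ F ∈ Cof X, ⨅ y ∈ {y : X | y ∈ F ∧ N y = 1},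
      ((N (x + t • y) - 1 : ℝ) : EReal) := lt_of_lt_of_le hc (iInf₂_le x hx)
  obtain ⟨F, hF⟩ := lt_iSup_iff.mp h1
  obtain ⟨hFc, hF2⟩ := lt_iSup_iff.mp hF
  refine ⟨F, hFc, fun y hyF hy1 => ?_⟩
  have h2 : ((c : ℝ) : EReal) < ((N (x + t • y) - 1 : ℝ) : EReal) :=
    lt_of_lt_of_le hF2 (iInf₂_le y ⟨hyF, hy1⟩)
  have h3 : c < N (x + t • y) - 1 := by exact_mod_cast h2
  linarith

end Vale.Agent.Lib.P069
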