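import Vale.Agent.Lib.P069.Approx
import Vale.Agent.Lib.P069.Moduli

/-!
# P069: density of good vectors gives AMUC (module M)

ROUTE.
* `kerList_mem_cof`: the common kernel of finitely many continuous functionals is closed and of
  finite codimension (it is the kernel of the linear map `W → (Fin L.length → ℝ)`;
  `LinearMap.quotKerEquivRange`).
* `isAMUC_of_approx`: use `isAMUC_of_forall`.  Given `t > 0` let `c = min 1 (t ^ 3 / 576) / 2`
  (any explicit positive constant that works).  Given `‖x‖ = 1` choose a good `z` with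
  `‖x - z‖ < ε` (`ε` small, say `ε = c0 / 4` with `c0 = min 1 (t^3 / 576)`), `F = kerList L`.
  For `y ∈ F`, `‖y‖ = 1`, apply goodness to `t • y`: as `mass (t • y) = 0`,
  `‖z + t y‖ + ‖z - t y‖ = 2 (pos (z + t y) + pos (z - t y)) - 2 mass z ≥ 2 ‖z‖ + 4 g`
  (`norm_eq_two_pos`), so `max ≥ ‖z‖ + 2 g`, and
  `t ^ 3 ≤ 64 g (2 pos z + g) (2 pos (-z) + g) ≤ 64 g (‖z‖ + g) ^ 2 ≤ 64 g (2 + g)^2`,
  whence `g ≥ min 1 (t ^ 3 / 576)`.  Finally `‖x ± t y‖ ≥ ‖z ± t y‖ - ε`, `‖z‖ ≥ 1 - ε`.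
-/

namespace Vale.Agent.Lib.P069

/-- The common kernel of a list of functionals. -/
def kerList {W : Type} [NormedAddCommGroup W] [NormedSpace ℝ W] (L : List (W →L[ℝ] ℝ)) :
    Submodule ℝ W where
  carrier := {y | ∀ f ∈ L, f y = 0}
  add_mem' := fun {a b} ha hb f hf => by rw [map_add, ha f hf, hb f hf, add_zero]
  zero_mem' := fun f _ => map_zero f
  smul_mem' := fun c x hx f hf => by rw [map_smul, hx f hf, smul_zero]

theorem kerList_mem_cof {W : Type} [NormedAddCommGroup W] [NormedSpace ℝ W]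
    (L : List (W →L[ℝ] ℝ)) : kerList L ∈ Cof W := by
  refine ⟨?_, ?_⟩
  · have h : ((kerList L : Submodule ℝ W) : Set W) = ⋂ f ∈ {f | f ∈ L}, (f ⁻¹' {0} : Set W) := by
      ext y
      simp only [Set.mem_iInter, Set.mem_preimage, Set.mem_singleton_iff]
      rfl
    rw [h]
    exact isClosed_biInter fun f _ => isClosed_singleton.preimage f.continuous
  · set Ψ : W →ₗ[ℝ] (Fin L.length → ℝ) := LinearMap.pi fun i => (L.get i).toLinearMap with hΨ
    have hker : kerList L = LinearMap.ker Ψ := by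
      ext y
      rw [LinearMap.mem_ker]
      constructor
      · intro hy
        funext i
        exact hy (L.get i) (List.get_mem L i)
      · intro hy f hf
        obtain ⟨i, rfl⟩ := List.get_of_mem hf
        exact congrFun hy i
    rw [hker]
    exact LinearEquiv.finiteDimensional (LinearMap.quotKerEquivRange Ψ).symm

theorem isAMUC_of_approx {W : Type} [NormedAddCommGroup W] [NormedSpace ℝ W] [SignedSpace W]
    (h : Approx W) : IsAMUC (fun x : W => ‖x‖) := by
  apply isAMUC_of_forall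
  intro t ht
  set c0 : ℝ := min 1 (t ^ 3 / 576) with hc0
  have hc0pos : 0 < c0 := lt_min one_pos (by positivity)
  have hc01 : c0 ≤ 1 := min_le_left _ _
  refine ⟨c0, hc0pos, ?_⟩
  intro x hx
  have hx1 : ‖x‖ = 1 := hx
  obtain ⟨z, ⟨L, hL⟩, hxz⟩ := h x (c0 / 4) (by positivity)
  refine ⟨kerList L, kerList_mem_cof L, ?_⟩
  intro y hyF hy
  have hy1 : ‖y‖ = 1 := hy
  show 1 + c0 ≤ max ‖x + t • y‖ ‖x - t • y‖
  obtain ⟨hm, g, hg0, hg1, hg2⟩ := hL (t • y) (fun f hf => by rw [map_smul, hyF f hf, smul_zero])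
  have hn1 : ‖z + t • y‖ = 2 * pos (z + t • y) - mass z := by
    rw [norm_eq_two_pos, map_add, hm, add_zero]
  have hn2 : ‖z - t • y‖ = 2 * pos (z - t • y) - mass z := by
    rw [norm_eq_two_pos, map_sub, hm, sub_zero]
  have hnz : ‖z‖ = 2 * pos z - mass z := norm_eq_two_pos z
  have hsum : 2 * ‖z‖ + 4 * g ≤ ‖z + t • y‖ + ‖z - t • y‖ := by
    rw [hn1, hn2, hnz]; linarith
  have hmax : ‖z‖ + 2 * g ≤ max ‖z + t • y‖ ‖z - t • y‖ := by
    rcases le_total ‖z + t • y‖ ‖z - t • y‖ with h1 | h1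
    · rw [max_eq_right h1]; linarith
    · rw [max_eq_left h1]; linarith
  have hzlo : 1 - c0 / 4 ≤ ‖z‖ := by
    have := norm_sub_norm_le x z
    rw [hx1] at this
    linarith
  have hzhi : ‖z‖ ≤ 2 := by
    have := norm_sub_norm_le z x
    rw [hx1, norm_sub_rev] at this
    linarith
  have hty : ‖t • y‖ = t := by rw [norm_smul, hy1, mul_one, Real.norm_of_nonneg ht.le]
  rw [hty] at hg2
  have hprod : (2 * pos z + g) * (2 * pos (-z) + g) ≤ (‖z‖ + g) ^ 2 := by
    rw [norm_eq z]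
    nlinarith [sq_nonneg (pos z - pos (-z))]
  have hg3 : t ^ 3 ≤ 64 * (g * (2 + g) ^ 2) := by
    have h1 : (‖z‖ + g) ^ 2 ≤ (2 + g) ^ 2 :=
      pow_le_pow_left₀ (by positivity) (by linarith) 2
    have h2 : g * ((2 * pos z + g) * (2 * pos (-z) + g)) ≤ g * (2 + g) ^ 2 :=
      mul_le_mul_of_nonneg_left (hprod.trans h1) hg0
    calc t ^ 3 ≤ 64 * (g * (2 * pos z + g) * (2 * pos (-z) + g)) := hg2
      _ = 64 * (g * ((2 * pos z + g) * (2 * pos (-z) + g))) := by ring
      _ ≤ _ := by linarith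
  have hgc : c0 ≤ g := by
    by_contra hcon
    push Not at hcon
    have hg1' : g < 1 := lt_of_lt_of_le hcon hc01
    have hg4 : g < t ^ 3 / 576 := lt_of_lt_of_le hcon (min_le_right _ _)
    have h9 : (2 + g) ^ 2 ≤ 9 := by nlinarith
    have : g * (2 + g) ^ 2 ≤ g * 9 := mul_le_mul_of_nonneg_left h9 hg0
    rw [lt_div_iff₀ (by norm_num)] at hg4
    linarith
  have hp : ‖z + t • y‖ ≤ ‖x + t • y‖ + c0 / 4 := by
    have h1 : z + t • y = (x + t • y) - (x - z) := by abel
    rw [h1]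
    exact (norm_sub_le _ _).trans (by linarith)
  have hq : ‖z - t • y‖ ≤ ‖x - t • y‖ + c0 / 4 := by
    have h1 : z - t • y = (x - t • y) - (x - z) := by abel
    rw [h1]
    exact (norm_sub_le _ _).trans (by linarith)
  have hmax2 : max ‖z + t • y‖ ‖z - t • y‖ ≤ max ‖x + t • y‖ ‖x - t • y‖ + c0 / 4 :=
    max_le (hp.trans (by linarith [le_max_left ‖x + t • y‖ ‖x - t • y‖]))
      (hq.trans (by linarith [le_max_right ‖x + t • y‖ ‖x - t • y‖]))
  linarith

end Vale.Agent.Lib.P069
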