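import Vale.Agent.Lib.P069.GoodStep

/-!
# P069: density of good vectors passes to the step construction (module A2)
-/

open scoped ENNReal

namespace Vale.Agent.Lib.P069

/-- On the line take `L = [id]`, so `y = 0` and `g = 0`. -/
theorem approx_real : Approx ℝ := by
  intro x ε hε
  refine ⟨x, ⟨[ContinuousLinearMap.id ℝ ℝ], ?_⟩, by simpa using hε⟩
  intro y hy
  have hy0 : y = 0 := by
    have := hy (ContinuousLinearMap.id ℝ ℝ) (List.mem_singleton.mpr rfl)
    simpa using this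
  subst hy0
  refine ⟨map_zero _, 0, le_rfl, ?_, ?_⟩
  · simp only [add_zero, sub_zero, mul_zero]
    linarith
  · simp

variable {E : ℕ → Type} [∀ n, NormedAddCommGroup (E n)] [∀ n, NormedSpace ℝ (E n)]
  [∀ n, SignedSpace (E n)]

/-- ROUTE.  Given `x = (a, μ)` and `ε`: by `lp.hasSum_single` choose a finset `B` with
`‖μ - ∑ n ∈ B, lp.single 2 n (μ n)‖ < ε / 4`; choose good `z n` with
`‖μ n - z n‖ < ε / (4 * (B.card + 1))`; use `step_norm_le` and `lp.norm_single`. -/
theorem approx_step (h : ∀ n, Approx (E n)) : Approx (Step E) := by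
  intro x ε hε
  have hs : HasSum (fun n => lp.single 2 n (x.2 n)) x.2 :=
    lp.hasSum_single (by norm_num) x.2
  have hε4 : 0 < ε / 4 := by positivity
  obtain ⟨B, hB⟩ : ∃ B : Finset ℕ, ‖(∑ n ∈ B, lp.single 2 n (x.2 n)) - x.2‖ < ε / 4 := by
    have h1 := (Metric.tendsto_nhds.mp hs (ε / 4) hε4).exists
    obtain ⟨B, hB⟩ := h1
    exact ⟨B, by rwa [dist_eq_norm] at hB⟩
  set δ : ℝ := ε / (4 * (B.card + 1)) with hδ
  have hδpos : 0 < δ := by positivity
  choose z hzg hzn using fun n => h n (x.2 n) δ hδpos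
  refine ⟨mkStep x.1 (∑ n ∈ B, lp.single 2 n (z n)), good_step x.1 B z (fun n _ => hzg n), ?_⟩
  have h1 := step_norm_le (x - mkStep x.1 (∑ n ∈ B, lp.single 2 n (z n)))
  simp only [step_sub_fst, step_sub_snd, mkStep_fst, mkStep_snd, sub_self, abs_zero,
    zero_add] at h1
  have h2 : x.2 - ∑ n ∈ B, lp.single 2 n (z n) =
      (x.2 - ∑ n ∈ B, lp.single 2 n (x.2 n)) + ∑ n ∈ B, lp.single 2 n (x.2 n - z n) := by
    have : ∀ n, lp.single 2 n (x.2 n - z n) = lp.single (E := E) 2 n (x.2 n) - lp.single 2 n (z n) :=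
      fun n => lp.single_sub _ _ _ _
    simp only [this, Finset.sum_sub_distrib]
    abel
  have h3 : ‖∑ n ∈ B, lp.single (E := E) 2 n (x.2 n - z n)‖ ≤ B.card * δ := by
    calc ‖∑ n ∈ B, lp.single (E := E) 2 n (x.2 n - z n)‖
        ≤ ∑ n ∈ B, ‖lp.single (E := E) 2 n (x.2 n - z n)‖ := norm_sum_le _ _
      _ ≤ ∑ _n ∈ B, δ := by
          refine Finset.sum_le_sum fun n _ => ?_
          rw [lp.norm_single (by norm_num)]
          exact (hzn n).le
      _ = B.card * δ := by rw [Finset.sum_const, nsmul_eq_mul]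
  have h4 : (B.card : ℝ) * δ < ε / 4 := by
    rw [hδ, mul_div_assoc', div_lt_div_iff₀ (by positivity) (by norm_num)]
    have : (0 : ℝ) ≤ B.card := Nat.cast_nonneg _
    nlinarith
  have h5 : ‖x.2 - ∑ n ∈ B, lp.single 2 n (z n)‖ < ε / 4 + ε / 4 := by
    rw [h2]
    refine lt_of_le_of_lt (norm_add_le _ _) ?_
    rw [norm_sub_rev]
    linarith
  linarith

end Vale.Agent.Lib.P069
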