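import Vale.Agent.Lib.P069.StepApi

/-!
# P069: flat weakly null trees (module F)
-/

open scoped ENNReal
open Filter Topology

namespace Vale.Agent.Lib.P069

/-- `Flat k x`: `x` is the root of a weakly null tree of height `k` with increments of norm at
least one and all nodes (except possibly the root) in the unit ball. -/
def Flat {W : Type} [NormedAddCommGroup W] [NormedSpace ℝ W] : ℕ → W → Prop
  | 0, _ => True
  | k + 1, x => ∃ η : ℕ → W, (∀ n, 1 ≤ ‖η n‖) ∧
      (∀ f : W →L[ℝ] ℝ, Tendsto (fun n => f (η n)) atTop (𝓝 0)) ∧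
      ∀ n, ‖x + η n‖ ≤ 1 ∧ Flat k (x + η n)

theorem Flat.map {W W' : Type} [NormedAddCommGroup W] [NormedSpace ℝ W]
    [NormedAddCommGroup W'] [NormedSpace ℝ W'] (J : W →L[ℝ] W') (hJ : ∀ x, ‖J x‖ = ‖x‖)
    (k : ℕ) (x : W) (h : Flat k x) : Flat k (J x) := by
  induction k generalizing x with
  | zero => exact trivial
  | succ k ih =>
    obtain ⟨η, h1, h2, h3⟩ := h
    refine ⟨fun n => J (η n), fun n => by rw [hJ]; exact h1 n, fun f => h2 (f.comp J),
      fun n => ?_⟩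
    rw [← map_add, hJ]
    exact ⟨(h3 n).1, ih _ (h3 n).2⟩

variable {E : ℕ → Type} [∀ n, NormedAddCommGroup (E n)] [∀ n, NormedSpace ℝ (E n)]
  [∀ n, SignedSpace (E n)]

theorem sum_sq_single_pt_le (φ : lp E 2 →L[ℝ] ℝ) (s : Finset ℕ) :
    ∑ n ∈ s, (φ (lp.single 2 n (pt : E n))) ^ 2 ≤ ‖φ‖ ^ 2 := by
  set c : ℕ → ℝ := fun n => φ (lp.single 2 n (pt : E n)) with hc
  set S := ∑ n ∈ s, c n ^ 2 with hS
  have hS0 : 0 ≤ S := Finset.sum_nonneg fun n _ => sq_nonneg _
  set v : lp E 2 := ∑ n ∈ s, lp.single 2 n (c n • (pt : E n)) with hv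
  have hφv : φ v = S := by
    rw [hv, map_sum, hS]
    refine Finset.sum_congr rfl fun n _ => ?_
    rw [lp.single_smul, map_smul, smul_eq_mul]
    ring
  have hnv : ‖v‖ ^ 2 = S := by
    have h := lp.norm_sum_single (p := 2) (E := E) (by norm_num) (fun n => c n • (pt : E n)) s
    simp only [ENNReal.toReal_ofNat, Real.rpow_two] at h
    rw [hv, h, hS]
    refine Finset.sum_congr rfl fun n _ => ?_
    rw [norm_smul, norm_pt, mul_one, Real.norm_eq_abs, sq_abs]
  have h1 : S ≤ ‖φ‖ * ‖v‖ := by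
    rw [← hφv]
    exact le_trans (le_abs_self _) (φ.le_opNorm v)
  have h2 : S ^ 2 ≤ ‖φ‖ ^ 2 * S := by
    calc S ^ 2 ≤ (‖φ‖ * ‖v‖) ^ 2 := pow_le_pow_left₀ hS0 h1 2
      _ = ‖φ‖ ^ 2 * S := by rw [mul_pow, hnv]
  by_cases hS1 : S = 0
  · rw [hS1]; positivity
  · have hSp : 0 < S := lt_of_le_of_ne hS0 (Ne.symm hS1)
    have : S * S ≤ ‖φ‖ ^ 2 * S := by rw [← sq]; exact h2
    exact le_of_mul_le_mul_right this hSp

theorem tendsto_single_pt (φ : lp E 2 →L[ℝ] ℝ) :
    Tendsto (fun n => φ (lp.single 2 n (pt : E n))) atTop (𝓝 0) := by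
  have hsum : Summable fun n => (φ (lp.single 2 n (pt : E n))) ^ 2 :=
    summable_of_sum_le (fun n => sq_nonneg _) (sum_sq_single_pt_le φ)
  have h0 := hsum.tendsto_atTop_zero
  have h1 : Tendsto (fun n => Real.sqrt ((φ (lp.single 2 n (pt : E n))) ^ 2)) atTop (𝓝 0) := by
    have := (Real.continuous_sqrt.tendsto 0).comp h0
    rw [Real.sqrt_zero] at this
    exact this
  rw [tendsto_zero_iff_abs_tendsto_zero]
  refine h1.congr fun n => ?_
  rw [Real.sqrt_sq_eq_abs]; rfl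

theorem flat_step (k : ℕ) (h : ∀ n, Flat k (pt : E n)) : Flat (k + 1) (pt : Step E) := by
  refine ⟨fun n => stepInr (lp.single 2 n (pt : E n)), fun n => ?_, fun f => ?_, fun n => ?_⟩
  · rw [norm_stepInr_single_pt]; norm_num
  · exact tendsto_single_pt (f.comp stepInr)
  · rw [← stepEmb_pt]
    exact ⟨by rw [norm_stepEmb, norm_pt], Flat.map _ (norm_stepEmb n) k _ (h n)⟩

end Vale.Agent.Lib.P069
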