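import Vale.Agent.Lib.P069.StepApi

/-!
# P069: good vectors (definitions)
-/

namespace Vale.Agent.Lib.P069

/-- `Good z`: there are finitely many functionals such that every `y` killed by them has mass
zero and produces a midpoint gain `g` of the positive mass at `z`, of cubic size. -/
def Good {W : Type} [NormedAddCommGroup W] [NormedSpace ℝ W] [SignedSpace W] (z : W) : Prop :=
  ∃ L : List (W →L[ℝ] ℝ), ∀ y : W, (∀ f ∈ L, f y = 0) → mass y = 0 ∧
    ∃ g : ℝ, 0 ≤ g ∧ 2 * pos z + 2 * g ≤ pos (z + y) + pos (z - y) ∧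
      ‖y‖ ^ 3 ≤ 64 * (g * (2 * pos z + g) * (2 * pos (-z) + g))

/-- Good vectors are dense. -/
def Approx (W : Type) [NormedAddCommGroup W] [NormedSpace ℝ W] [SignedSpace W] : Prop :=
  ∀ (x : W) (ε : ℝ), 0 < ε → ∃ z : W, Good z ∧ ‖x - z‖ < ε

end Vale.Agent.Lib.P069
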