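import Mathlib

/-!
# P069: the node inequality (module K), pure real analysis
-/

namespace Vale.Agent.Lib.P069

theorem amgm3 (a b : ℝ) (ha : 0 ≤ a) (hb : 0 ≤ b) : a ^ 2 * b ≤ ((2 * a + b) / 3) ^ 3 := by
  have : ((2 * a + b) / 3) ^ 3 - a ^ 2 * b = (a - b) ^ 2 * (8 * a + b) / 27 := by ring
  have h2 : 0 ≤ (a - b) ^ 2 * (8 * a + b) / 27 := by positivity
  linarith

theorem holder_cube {ι : Type} (B : Finset ι) (x w n : ι → ℝ)
    (hx : ∀ i ∈ B, 0 ≤ x i) (hw : ∀ i ∈ B, 0 ≤ w i) (hn : ∀ i ∈ B, 0 ≤ n i)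
    (h : ∀ i ∈ B, n i ^ 3 ≤ x i * w i) :
    (∑ i ∈ B, n i ^ 2) ^ 3 ≤ (∑ i ∈ B, x i) ^ 2 * ∑ i ∈ B, w i ^ 2 := by
  set X := ∑ i ∈ B, x i with hXdef
  set W := ∑ i ∈ B, w i ^ 2 with hWdef
  have hX : 0 ≤ X := Finset.sum_nonneg hx
  have hW : 0 ≤ W := Finset.sum_nonneg fun i _ => sq_nonneg _
  have hzero : (∀ i ∈ B, x i * w i = 0) → (∑ i ∈ B, n i ^ 2) ^ 3 ≤ X ^ 2 * W := by
    intro h0
    have : ∀ i ∈ B, n i ^ 2 = 0 := by
      intro i hi
      have h1 := h i hi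
      rw [h0 i hi] at h1
      have h2 : n i ^ 3 = 0 := le_antisymm h1 (pow_nonneg (hn i hi) 3)
      have h3 : n i = 0 := by simpa using h2
      rw [h3]; norm_num
    rw [Finset.sum_eq_zero this]
    have : 0 ≤ X ^ 2 * W := by positivity
    simpa using this
  by_cases hX0 : X = 0
  · apply hzero
    intro i hi
    have := (Finset.sum_eq_zero_iff_of_nonneg hx).mp hX0 i hi
    rw [this, zero_mul]
  by_cases hW0 : W = 0
  · apply hzero
    intro i hi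
    have := (Finset.sum_eq_zero_iff_of_nonneg (fun i _ => sq_nonneg (w i))).mp hW0 i hi
    have h3 : w i = 0 := by simpa using this
    rw [h3, mul_zero]
  have hXp : 0 < X := lt_of_le_of_ne hX (Ne.symm hX0)
  have hWp : 0 < W := lt_of_le_of_ne hW (Ne.symm hW0)
  set M := X ^ 2 * W with hM
  have hMp : 0 ≤ M := by positivity
  set m := M ^ (((3 : ℕ) : ℝ)⁻¹) with hm
  have hm0 : 0 ≤ m := Real.rpow_nonneg hMp _
  have hm3 : m ^ 3 = M := Real.rpow_inv_natCast_pow hMp (by norm_num)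
  have hterm : ∀ i ∈ B, n i ^ 2 ≤ m * ((2 * (x i / X) + w i ^ 2 / W) / 3) := by
    intro i hi
    have hc : 0 ≤ (2 * (x i / X) + w i ^ 2 / W) / 3 := by
      have := hx i hi
      positivity
    have h1 : (n i ^ 2) ^ 3 ≤ (m * ((2 * (x i / X) + w i ^ 2 / W) / 3)) ^ 3 := by
      rw [mul_pow, hm3]
      have h2 : (n i ^ 2) ^ 3 = (n i ^ 3) ^ 2 := by ring
      have h3 : (n i ^ 3) ^ 2 ≤ (x i * w i) ^ 2 :=
        pow_le_pow_left₀ (pow_nonneg (hn i hi) 3) (h i hi) 2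
      have h4 : (x i * w i) ^ 2 = M * ((x i / X) ^ 2 * (w i ^ 2 / W)) := by
        rw [hM]; field_simp
      have h5 := amgm3 (x i / X) (w i ^ 2 / W) (div_nonneg (hx i hi) hX) (by positivity)
      rw [h2]
      calc (n i ^ 3) ^ 2 ≤ M * ((x i / X) ^ 2 * (w i ^ 2 / W)) := by rw [← h4]; exact h3
        _ ≤ M * ((2 * (x i / X) + w i ^ 2 / W) / 3) ^ 3 := mul_le_mul_of_nonneg_left h5 hMp
    exact le_of_pow_le_pow_left₀ (by norm_num) (mul_nonneg hm0 hc) h1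
  have hsum : ∑ i ∈ B, n i ^ 2 ≤ m := by
    calc ∑ i ∈ B, n i ^ 2 ≤ ∑ i ∈ B, m * ((2 * (x i / X) + w i ^ 2 / W) / 3) :=
          Finset.sum_le_sum hterm
      _ = m * ((2 * (X / X) + W / W) / 3) := by
          rw [← Finset.mul_sum, ← Finset.sum_div, Finset.sum_add_distrib, ← Finset.mul_sum,
            ← Finset.sum_div, ← Finset.sum_div]
      _ = m := by
          rw [div_self hX0, div_self hW0]; ring
  calc (∑ i ∈ B, n i ^ 2) ^ 3 ≤ m ^ 3 :=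
        pow_le_pow_left₀ (Finset.sum_nonneg fun i _ => sq_nonneg _) hsum 3
    _ = M := hm3

theorem minkowski_aux {ι : Type} (B : Finset ι) (v g : ι → ℝ) (p : ℝ) :
    Real.sqrt (∑ i ∈ B, (2 * v i + g i) ^ 2 + p ^ 2) ≤
      Real.sqrt (∑ i ∈ B, v i ^ 2) + Real.sqrt (∑ i ∈ B, (v i + g i) ^ 2 + p ^ 2) := by
  set C := ∑ i ∈ B, v i ^ 2 with hC
  set A0 := ∑ i ∈ B, (v i + g i) ^ 2 with hA0
  have hC0 : 0 ≤ C := Finset.sum_nonneg fun i _ => sq_nonneg _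
  have hA00 : 0 ≤ A0 := Finset.sum_nonneg fun i _ => sq_nonneg _
  have hA : 0 ≤ A0 + p ^ 2 := by positivity
  have hcs : (∑ i ∈ B, v i * (v i + g i)) ^ 2 ≤ C * A0 := Finset.sum_mul_sq_le_sq_mul_sq _ _ _
  have hD : ∑ i ∈ B, (2 * v i + g i) ^ 2 = C + A0 + 2 * ∑ i ∈ B, v i * (v i + g i) := by
    rw [hC, hA0, Finset.mul_sum, ← Finset.sum_add_distrib, ← Finset.sum_add_distrib]
    exact Finset.sum_congr rfl fun i _ => by ring
  have h1 : ∑ i ∈ B, v i * (v i + g i) ≤ Real.sqrt C * Real.sqrt (A0 + p ^ 2) := by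
    rw [← Real.sqrt_mul hC0]
    apply Real.le_sqrt_of_sq_le
    calc (∑ i ∈ B, v i * (v i + g i)) ^ 2 ≤ C * A0 := hcs
      _ ≤ C * (A0 + p ^ 2) := by
          apply mul_le_mul_of_nonneg_left _ hC0
          nlinarith [sq_nonneg p]
  rw [← Real.sqrt_sq (add_nonneg (Real.sqrt_nonneg C) (Real.sqrt_nonneg (A0 + p ^ 2)))]
  apply Real.sqrt_le_sqrt
  rw [add_sq, Real.sq_sqrt hC0, Real.sq_sqrt hA, hD]
  nlinarith

theorem node_core {ι : Type} (B : Finset ι) (u v g ν : ι → ℝ)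
    (hu : ∀ i ∈ B, 0 ≤ u i) (hv : ∀ i ∈ B, 0 ≤ v i) (hg : ∀ i ∈ B, 0 ≤ g i)
    (hν : ∀ i ∈ B, 0 ≤ ν i)
    (h : ∀ i ∈ B, ν i ^ 3 ≤ 64 * (g i * (2 * u i + g i) * (2 * v i + g i)))
    (p Y : ℝ) (hp : 0 ≤ p) (hY : 0 ≤ Y) (hY2 : Y ^ 2 ≤ ∑ i ∈ B, ν i ^ 2 + 16 * p ^ 2)
    (A₁ A₂ : ℝ) (hA1 : ∑ i ∈ B, g i * (2 * u i + g i) + p ^ 2 ≤ A₁)
    (hA2 : Real.sqrt (∑ i ∈ B, (2 * v i + g i) ^ 2 + p ^ 2) ≤ A₂) :
    Y ^ 3 ≤ 64 * (A₁ * A₂) := by
  have hH := holder_cube (Finset.insertNone B)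
    (fun o => o.elim (p ^ 2) fun i => g i * (2 * u i + g i))
    (fun o => o.elim p fun i => 2 * v i + g i)
    (fun o => o.elim p fun i => ν i / 4)
    (by
      intro o ho
      cases o with
      | none => simp; positivity
      | some i =>
        have hi : i ∈ B := by simpa using ho
        have := hu i hi
        have := hg i hi
        simp; positivity)
    (by
      intro o ho
      cases o with
      | none => simpa using hp
      | some i =>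
        have hi : i ∈ B := by simpa using ho
        have := hv i hi
        have := hg i hi
        simp; positivity)
    (by
      intro o ho
      cases o with
      | none => simpa using hp
      | some i =>
        have hi : i ∈ B := by simpa using ho
        have := hν i hi
        simp; positivity)
    (by
      intro o ho
      cases o with
      | none => simp; ring_nf; exact le_rfl
      | some i =>
        have hi : i ∈ B := by simpa using ho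
        have := h i hi
        simp only [Option.elim_some]
        have h2 : (ν i / 4) ^ 3 = ν i ^ 3 / 64 := by ring
        rw [h2]; linarith)
  simp only [Finset.sum_insertNone, Option.elim_none, Option.elim_some] at hH
  set Xs := ∑ i ∈ B, g i * (2 * u i + g i) with hXs
  set Ws := ∑ i ∈ B, (2 * v i + g i) ^ 2 with hWs
  have hXs0 : 0 ≤ Xs := Finset.sum_nonneg fun i hi =>
    mul_nonneg (hg i hi) (by have := hu i hi; have := hg i hi; positivity)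
  have hWs0 : 0 ≤ Ws := Finset.sum_nonneg fun i _ => sq_nonneg _
  have hA1' : 0 ≤ p ^ 2 + Xs := by positivity
  have hsq : 0 ≤ Real.sqrt (Ws + p ^ 2) := Real.sqrt_nonneg _
  have hκ : (p ^ 2 + Xs) * Real.sqrt (Ws + p ^ 2) ≤ A₁ * A₂ :=
    mul_le_mul (by linarith) hA2 hsq (by linarith)
  have hκ0 : 0 ≤ (p ^ 2 + Xs) * Real.sqrt (Ws + p ^ 2) := mul_nonneg hA1' hsq
  have hsum : ∑ i ∈ B, (ν i / 4) ^ 2 = (∑ i ∈ B, ν i ^ 2) / 16 := by
    rw [Finset.sum_div]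
    exact Finset.sum_congr rfl fun i _ => by ring
  rw [hsum] at hH
  have h6 : (Y ^ 3 / 64) ^ 2 ≤ ((p ^ 2 + Xs) * Real.sqrt (Ws + p ^ 2)) ^ 2 := by
    rw [mul_pow, Real.sq_sqrt (by positivity)]
    have h7 : (Y ^ 3 / 64) ^ 2 = (Y ^ 2 / 16) ^ 3 := by ring
    rw [h7]
    calc (Y ^ 2 / 16) ^ 3 ≤ (p ^ 2 + (∑ i ∈ B, ν i ^ 2) / 16) ^ 3 := by
          apply pow_le_pow_left₀ (by positivity)
          linarith
      _ ≤ (p ^ 2 + Xs) ^ 2 * (p ^ 2 + Ws) := hH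
      _ = (p ^ 2 + Xs) ^ 2 * (Ws + p ^ 2) := by ring
  have h8 : Y ^ 3 / 64 ≤ (p ^ 2 + Xs) * Real.sqrt (Ws + p ^ 2) :=
    le_of_pow_le_pow_left₀ (by norm_num) hκ0 h6
  linarith

theorem node_ineq {ι : Type} (B : Finset ι) (u v g ν : ι → ℝ)
    (hu : ∀ i ∈ B, 0 ≤ u i) (hv : ∀ i ∈ B, 0 ≤ v i) (hg : ∀ i ∈ B, 0 ≤ g i)
    (hν : ∀ i ∈ B, 0 ≤ ν i)
    (h : ∀ i ∈ B, ν i ^ 3 ≤ 64 * (g i * (2 * u i + g i) * (2 * v i + g i)))
    (p a Y : ℝ) (hp : 0 ≤ p) (hY : 0 ≤ Y) (hY2 : Y ^ 2 ≤ ∑ i ∈ B, ν i ^ 2 + 16 * p ^ 2)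
    (U G : ℝ)
    (hU : U = max (Real.sqrt (∑ i ∈ B, u i ^ 2)) (a + Real.sqrt (∑ i ∈ B, v i ^ 2)))
    (hG : U + G = max (Real.sqrt (∑ i ∈ B, (u i + g i) ^ 2 + p ^ 2))
      (a + Real.sqrt (∑ i ∈ B, (v i + g i) ^ 2 + p ^ 2))) :
    0 ≤ G ∧ Y ^ 3 ≤ 64 * (G * (2 * U + G) * (2 * (U - a) + G)) := by
  set P := Real.sqrt (∑ i ∈ B, u i ^ 2) with hP
  set Q := Real.sqrt (∑ i ∈ B, v i ^ 2) with hQ
  set P' := Real.sqrt (∑ i ∈ B, (u i + g i) ^ 2 + p ^ 2) with hP'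
  set Q' := Real.sqrt (∑ i ∈ B, (v i + g i) ^ 2 + p ^ 2) with hQ'
  have hmono : ∀ c : ι → ℝ, (∀ i ∈ B, 0 ≤ c i) →
      ∑ i ∈ B, c i ^ 2 ≤ ∑ i ∈ B, (c i + g i) ^ 2 + p ^ 2 := by
    intro c hc
    have : ∑ i ∈ B, c i ^ 2 ≤ ∑ i ∈ B, (c i + g i) ^ 2 :=
      Finset.sum_le_sum fun i hi =>
        pow_le_pow_left₀ (hc i hi) (by linarith [hg i hi]) 2
    nlinarith [sq_nonneg p]
  have hPP : P ≤ P' := Real.sqrt_le_sqrt (hmono u hu)
  have hQQ : Q ≤ Q' := Real.sqrt_le_sqrt (hmono v hv)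
  have hP0 : 0 ≤ P := Real.sqrt_nonneg _
  have hQ0 : 0 ≤ Q := Real.sqrt_nonneg _
  have hG0 : 0 ≤ G := by
    have : U ≤ U + G := by
      rw [hG, hU]
      exact max_le_max hPP (by linarith)
    linarith
  refine ⟨hG0, ?_⟩
  have hUP : P ≤ U := by rw [hU]; exact le_max_left _ _
  have hUQ : a + Q ≤ U := by rw [hU]; exact le_max_right _ _
  have hUP' : P' ≤ U + G := by rw [hG]; exact le_max_left _ _
  have hUQ' : a + Q' ≤ U + G := by rw [hG]; exact le_max_right _ _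
  have hsqdiff : ∀ c : ι → ℝ, ∑ i ∈ B, g i * (2 * c i + g i) + p ^ 2 =
      (∑ i ∈ B, (c i + g i) ^ 2 + p ^ 2) - ∑ i ∈ B, c i ^ 2 := by
    intro c
    have : ∑ i ∈ B, g i * (2 * c i + g i) = ∑ i ∈ B, (c i + g i) ^ 2 - ∑ i ∈ B, c i ^ 2 := by
      rw [← Finset.sum_sub_distrib]
      exact Finset.sum_congr rfl fun i _ => by ring
    rw [this]; ring
  have hPsq : P ^ 2 = ∑ i ∈ B, u i ^ 2 := Real.sq_sqrt (Finset.sum_nonneg fun i _ => sq_nonneg _)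
  have hQsq : Q ^ 2 = ∑ i ∈ B, v i ^ 2 := Real.sq_sqrt (Finset.sum_nonneg fun i _ => sq_nonneg _)
  have hP'sq : P' ^ 2 = ∑ i ∈ B, (u i + g i) ^ 2 + p ^ 2 := Real.sq_sqrt (by positivity)
  have hQ'sq : Q' ^ 2 = ∑ i ∈ B, (v i + g i) ^ 2 + p ^ 2 := Real.sq_sqrt (by positivity)
  rcases le_total (a + Q) P with hc | hc
  · -- U = P
    have hUeq : U = P := by rw [hU]; exact max_eq_left hc
    have hA1 : ∑ i ∈ B, g i * (2 * u i + g i) + p ^ 2 ≤ G * (2 * U + G) := by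
      rw [hsqdiff u, ← hP'sq, ← hPsq]
      have h1 : P' ^ 2 ≤ (U + G) ^ 2 := pow_le_pow_left₀ (Real.sqrt_nonneg _) hUP' 2
      rw [hUeq] at h1 ⊢
      nlinarith
    have hA2 : Real.sqrt (∑ i ∈ B, (2 * v i + g i) ^ 2 + p ^ 2) ≤ 2 * (U - a) + G := by
      refine le_trans (minkowski_aux B v g p) ?_
      linarith
    have := node_core B u v g ν hu hv hg hν h p Y hp hY hY2 _ _ hA1 hA2
    linarith
  · -- U = a + Q
    have hUeq : U = a + Q := by rw [hU]; exact max_eq_right hc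
    have hA1 : ∑ i ∈ B, g i * (2 * v i + g i) + p ^ 2 ≤ G * (2 * (U - a) + G) := by
      rw [hsqdiff v, ← hQ'sq, ← hQsq]
      have h0 : Q' ≤ Q + G := by linarith
      have h1 : Q' ^ 2 ≤ (Q + G) ^ 2 := pow_le_pow_left₀ (Real.sqrt_nonneg _) h0 2
      rw [hUeq]
      nlinarith
    have hA2 : Real.sqrt (∑ i ∈ B, (2 * u i + g i) ^ 2 + p ^ 2) ≤ 2 * U + G := by
      refine le_trans (minkowski_aux B u g p) ?_
      linarith
    have h' : ∀ i ∈ B, ν i ^ 3 ≤ 64 * (g i * (2 * v i + g i) * (2 * u i + g i)) := by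
      intro i hi
      have := h i hi
      nlinarith
    have := node_core B v u g ν hv hu hg hν h' p Y hp hY hY2 _ _ hA1 hA2
    nlinarith

end Vale.Agent.Lib.P069
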