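import Vale.Agent.Lib.P069.GoodDef
import Vale.Agent.Lib.P069.Node

/-!
# P069: the midpoint gain property passes to the step construction (module A1)
-/

open scoped ENNReal

namespace Vale.Agent.Lib.P069

section tail

variable {F : ℕ → Type} [∀ n, NormedAddCommGroup (F n)]

/-- The part of `f` off the finite set `s`. -/
noncomputable def tl (s : Finset ℕ) (f : lp F 2) : lp F 2 := f - ∑ i ∈ s, lp.single 2 i (f i)

theorem sum_single_apply (s : Finset ℕ) (z : ∀ n, F n) (m : ℕ) :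
    (∑ i ∈ s, lp.single 2 i (z i) : lp F 2) m = if m ∈ s then z m else 0 := by
  simp only [lp.coeFn_sum, lp.coeFn_single, Finset.sum_apply, Finset.sum_pi_single]

theorem tl_apply (s : Finset ℕ) (f : lp F 2) (m : ℕ) :
    tl s f m = if m ∈ s then 0 else f m := by
  unfold tl
  rw [lp.coeFn_sub, Pi.sub_apply, sum_single_apply]
  split_ifs <;> simp

theorem norm_sq_split (s : Finset ℕ) (f : lp F 2) :
    ‖f‖ ^ 2 = ∑ i ∈ s, ‖f i‖ ^ 2 + ‖tl s f‖ ^ 2 := by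
  have h := lp.norm_sub_norm_compl_sub_single (p := 2) (by norm_num) f s
  simp only [ENNReal.toReal_ofNat, Real.rpow_two] at h
  unfold tl
  linarith

theorem norm_tl_le {F' : ℕ → Type} [∀ n, NormedAddCommGroup (F' n)] (s : Finset ℕ)
    (f : lp F 2) (f' : lp F' 2) (h : ∀ m, m ∉ s → ‖f m‖ ≤ ‖f' m‖) : ‖tl s f‖ ≤ ‖tl s f'‖ := by
  refine lp.norm_mono (by norm_num) fun m => ?_
  rw [tl_apply, tl_apply]
  split_ifs with hm
  · simp
  · exact h m hm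

theorem sqrt_le_norm (s : Finset ℕ) (f : lp (fun _ : ℕ => ℝ) 2) (c : ℕ → ℝ) (R : ℝ)
    (hc : ∀ n ∈ s, 0 ≤ c n ∧ c n ≤ f n) (hR0 : 0 ≤ R) (hR : R ≤ ‖tl s f‖) :
    Real.sqrt (∑ n ∈ s, c n ^ 2 + R ^ 2) ≤ ‖f‖ := by
  rw [← Real.sqrt_sq (norm_nonneg f), norm_sq_split s f]
  apply Real.sqrt_le_sqrt
  have h1 : ∑ n ∈ s, c n ^ 2 ≤ ∑ n ∈ s, ‖f n‖ ^ 2 := by
    apply Finset.sum_le_sum
    intro n hn
    obtain ⟨h0, h1⟩ := hc n hn
    rw [Real.norm_eq_abs, sq_abs]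
    exact pow_le_pow_left₀ h0 h1 2
  have h2 : R ^ 2 ≤ ‖tl s f‖ ^ 2 := pow_le_pow_left₀ hR0 hR 2
  linarith

theorem norm_le_sqrt (s : Finset ℕ) (f : lp (fun _ : ℕ => ℝ) 2) (c : ℕ → ℝ) (R : ℝ)
    (hc : ∀ n ∈ s, |f n| ≤ c n) (hR : ‖tl s f‖ ≤ R) :
    ‖f‖ ≤ Real.sqrt (∑ n ∈ s, c n ^ 2 + R ^ 2) := by
  rw [← Real.sqrt_sq (norm_nonneg f), norm_sq_split s f]
  apply Real.sqrt_le_sqrt
  have h1 : ∑ n ∈ s, ‖f n‖ ^ 2 ≤ ∑ n ∈ s, c n ^ 2 := by
    apply Finset.sum_le_sum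
    intro n hn
    rw [Real.norm_eq_abs]
    exact pow_le_pow_left₀ (abs_nonneg _) (hc n hn) 2
  have h2 : ‖tl s f‖ ^ 2 ≤ R ^ 2 := pow_le_pow_left₀ (norm_nonneg _) hR 2
  linarith

end tail

variable {E : ℕ → Type} [∀ n, NormedAddCommGroup (E n)] [∀ n, NormedSpace ℝ (E n)]
  [∀ n, SignedSpace (E n)]

theorem norm_posSeq_sum (B : Finset ℕ) (z : ∀ n, E n) :
    ‖posSeq (∑ n ∈ B, lp.single 2 n (z n))‖ = Real.sqrt (∑ n ∈ B, pos (z n) ^ 2) := by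
  rw [← Real.sqrt_sq (norm_nonneg _), norm_sq_split B]
  have h0 : tl B (posSeq (∑ n ∈ B, lp.single 2 n (z n))) = 0 := by
    ext m
    rw [tl_apply]
    split_ifs with hm
    · rfl
    · rw [posSeq_apply, sum_single_apply, if_neg hm, pos_zero]; rfl
  rw [h0, norm_zero]
  congr 1
  have : ∀ n ∈ B, ‖posSeq (∑ n ∈ B, lp.single 2 n (z n)) n‖ ^ 2 = pos (z n) ^ 2 := by
    intro n hn
    rw [posSeq_apply, sum_single_apply, if_pos hn, Real.norm_eq_abs, sq_abs]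
  rw [Finset.sum_congr rfl this]
  ring

omit [∀ n, SignedSpace (E n)] in
theorem neg_sum_single (B : Finset ℕ) (z : ∀ n, E n) :
    -(∑ n ∈ B, lp.single 2 n (z n) : lp E 2) = ∑ n ∈ B, lp.single 2 n (-(z n)) := by
  rw [← Finset.sum_neg_distrib]
  exact Finset.sum_congr rfl fun n _ => (lp.single_neg 2 n (z n)).symm

theorem sqrt_two_mul (B : Finset ℕ) (c : ℕ → ℝ) (R : ℝ) :
    Real.sqrt (∑ n ∈ B, (2 * c n) ^ 2 + R ^ 2) =
      2 * Real.sqrt (∑ n ∈ B, c n ^ 2 + (R / 2) ^ 2) := by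
  have : ∑ n ∈ B, (2 * c n) ^ 2 + R ^ 2 = 2 ^ 2 * (∑ n ∈ B, c n ^ 2 + (R / 2) ^ 2) := by
    rw [mul_add, Finset.mul_sum]
    congr 1
    · exact Finset.sum_congr rfl fun n _ => by ring
    · ring
  rw [this, Real.sqrt_mul (by norm_num), Real.sqrt_sq (by norm_num)]


/-- The analytic core of `good_step`. -/
theorem good_step_core (a : ℝ) (B : Finset ℕ) (z : ∀ n, E n) (y : Step E) (hy1 : y.1 = 0)
    (g : ℕ → ℝ) (hm : ∀ n ∈ B, mass (y.2 n) = 0) (hg0 : ∀ n ∈ B, 0 ≤ g n)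
    (hg1 : ∀ n ∈ B, 2 * pos (z n) + 2 * g n ≤ pos (z n + y.2 n) + pos (z n - y.2 n))
    (hg2 : ∀ n ∈ B, ‖y.2 n‖ ^ 3 ≤
      64 * (g n * (2 * pos (z n) + g n) * (2 * pos (-(z n)) + g n))) :
    ∃ G : ℝ, 0 ≤ G ∧
      2 * pos (mkStep a (∑ n ∈ B, lp.single 2 n (z n)) : Step E) + 2 * G ≤
        pos (mkStep a (∑ n ∈ B, lp.single 2 n (z n)) + y) +
          pos (mkStep a (∑ n ∈ B, lp.single 2 n (z n)) - y) ∧
      ‖y‖ ^ 3 ≤ 64 * (G * (2 * pos (mkStep a (∑ n ∈ B, lp.single 2 n (z n)) : Step E) + G) *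
        (2 * pos (-(mkStep a (∑ n ∈ B, lp.single 2 n (z n)) : Step E)) + G)) := by
  set ζ : lp E 2 := ∑ n ∈ B, lp.single 2 n (z n) with hζ
  set η : lp E 2 := y.2 with hη
  set R : ℝ := ‖tl B η‖ with hR
  have hR0 : 0 ≤ R := norm_nonneg _
  set U : ℝ := max (Real.sqrt (∑ n ∈ B, pos (z n) ^ 2))
    (a + Real.sqrt (∑ n ∈ B, pos (-(z n)) ^ 2)) with hU
  set U' : ℝ := max (Real.sqrt (∑ n ∈ B, (pos (z n) + g n) ^ 2 + (R / 2) ^ 2))
    (a + Real.sqrt (∑ n ∈ B, (pos (-(z n)) + g n) ^ 2 + (R / 2) ^ 2)) with hU'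
  have hposx : pos (mkStep a ζ : Step E) = U := by
    rw [pos_step_def, mkStep_fst, mkStep_snd, hζ, neg_sum_single, norm_posSeq_sum,
      norm_posSeq_sum]
  have hposnx : pos (-(mkStep a ζ : Step E)) = U - a := by
    rw [pos_neg_eq, hposx, mass_step_def, mkStep_fst]
  have hζB : ∀ n ∈ B, ζ n = z n := fun n hn => by rw [hζ, sum_single_apply, if_pos hn]
  have hζN : ∀ n, n ∉ B → ζ n = 0 := fun n hn => by rw [hζ, sum_single_apply, if_neg hn]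
  -- the P part
  have hP : 2 * Real.sqrt (∑ n ∈ B, (pos (z n) + g n) ^ 2 + (R / 2) ^ 2) ≤
      ‖posSeq (ζ + η)‖ + ‖posSeq (ζ - η)‖ := by
    rw [← sqrt_two_mul]
    refine le_trans ?_ (norm_add_le _ _)
    refine sqrt_le_norm B _ _ R (fun n hn => ⟨?_, ?_⟩) hR0 ?_
    · have := hg0 n hn
      have := pos_nonneg (z n)
      positivity
    · simp only [lp.coeFn_add, lp.coeFn_sub, Pi.add_apply, Pi.sub_apply, posSeq_apply, hζB n hn]
      linarith [hg1 n hn]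
    · refine norm_tl_le B _ _ fun m hmB => ?_
      simp only [lp.coeFn_add, lp.coeFn_sub, Pi.add_apply, Pi.sub_apply, posSeq_apply, hζN m hmB,
        zero_add, zero_sub]
      rw [← norm_eq]
      exact le_of_eq (by simp)
  -- the Q part
  have hQ : 2 * Real.sqrt (∑ n ∈ B, (pos (-(z n)) + g n) ^ 2 + (R / 2) ^ 2) ≤
      ‖posSeq (-(ζ + η))‖ + ‖posSeq (-(ζ - η))‖ := by
    rw [← sqrt_two_mul]
    refine le_trans ?_ (norm_add_le _ _)
    refine sqrt_le_norm B _ _ R (fun n hn => ⟨?_, ?_⟩) hR0 ?_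
    · have := hg0 n hn
      have := pos_nonneg (-(z n))
      positivity
    · simp only [lp.coeFn_add, lp.coeFn_sub, lp.coeFn_neg, Pi.add_apply, Pi.sub_apply,
        Pi.neg_apply, posSeq_apply, hζB n hn]
      rw [pos_neg_eq (z n + η n), pos_neg_eq (z n - η n), pos_neg_eq (z n), map_add, map_sub,
        hm n hn]
      linarith [hg1 n hn]
    · refine norm_tl_le B _ _ fun m hmB => ?_
      simp only [lp.coeFn_add, lp.coeFn_sub, lp.coeFn_neg, Pi.add_apply, Pi.sub_apply,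
        Pi.neg_apply, posSeq_apply, hζN m hmB, zero_add, zero_sub, neg_neg]
      rw [add_comm, ← norm_eq]
      exact le_of_eq (by simp)
  have hsum : 2 * U' ≤ pos (mkStep a ζ + y) + pos (mkStep a ζ - y) := by
    rw [pos_step_def, pos_step_def]
    simp only [step_add_fst, step_add_snd, step_sub_fst, step_sub_snd, mkStep_fst, mkStep_snd,
      hy1, add_zero, sub_zero]
    have h1 := le_max_left ‖posSeq (ζ + η)‖ (a + ‖posSeq (-(ζ + η))‖)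
    have h2 := le_max_right ‖posSeq (ζ + η)‖ (a + ‖posSeq (-(ζ + η))‖)
    have h3 := le_max_left ‖posSeq (ζ - η)‖ (a + ‖posSeq (-(ζ - η))‖)
    have h4 := le_max_right ‖posSeq (ζ - η)‖ (a + ‖posSeq (-(ζ - η))‖)
    rcases max_cases (Real.sqrt (∑ n ∈ B, (pos (z n) + g n) ^ 2 + (R / 2) ^ 2))
      (a + Real.sqrt (∑ n ∈ B, (pos (-(z n)) + g n) ^ 2 + (R / 2) ^ 2)) with ⟨h, _⟩ | ⟨h, _⟩
    · rw [hU', h]; linarith
    · rw [hU', h]; linarith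
  -- the norm of y
  have hhalf : ∀ n ∈ B, pos (η n) = ‖η n‖ / 2 ∧ pos (-(η n)) = ‖η n‖ / 2 := by
    intro n hn
    have h1 := norm_eq_two_pos (η n)
    have h2 := pos_neg_eq (η n)
    rw [hm n hn] at h1 h2
    constructor <;> linarith
  have hS1 : ‖posSeq η‖ ≤ Real.sqrt (∑ n ∈ B, (‖η n‖ / 2) ^ 2 + R ^ 2) := by
    refine norm_le_sqrt B _ _ R (fun n hn => ?_) ?_
    · rw [posSeq_apply, abs_of_nonneg (pos_nonneg _), (hhalf n hn).1]
    · refine norm_tl_le B _ _ fun m _ => ?_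
      rw [posSeq_apply, Real.norm_eq_abs, abs_of_nonneg (pos_nonneg _)]
      exact pos_le_norm _
  have hS2 : ‖posSeq (-η)‖ ≤ Real.sqrt (∑ n ∈ B, (‖η n‖ / 2) ^ 2 + R ^ 2) := by
    refine norm_le_sqrt B _ _ R (fun n hn => ?_) ?_
    · rw [posSeq_apply, abs_of_nonneg (pos_nonneg _), lp.coeFn_neg, Pi.neg_apply, (hhalf n hn).2]
    · refine norm_tl_le B _ _ fun m _ => ?_
      rw [posSeq_apply, Real.norm_eq_abs, abs_of_nonneg (pos_nonneg _), lp.coeFn_neg,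
        Pi.neg_apply]
      exact pos_neg_le_norm _
  have hynorm : ‖y‖ ≤ 2 * Real.sqrt (∑ n ∈ B, (‖η n‖ / 2) ^ 2 + R ^ 2) := by
    rw [norm_eq_two_pos, mass_step_def, hy1, pos_step_def, hy1]
    have : max ‖posSeq y.2‖ (0 + ‖posSeq (-y.2)‖) ≤
        Real.sqrt (∑ n ∈ B, (‖η n‖ / 2) ^ 2 + R ^ 2) := max_le hS1 (by rw [zero_add]; exact hS2)
    linarith
  have hY2 : ‖y‖ ^ 2 ≤ ∑ n ∈ B, ‖η n‖ ^ 2 + 16 * (R / 2) ^ 2 := by
    have h0 : 0 ≤ ∑ n ∈ B, (‖η n‖ / 2) ^ 2 + R ^ 2 := by positivity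
    calc ‖y‖ ^ 2 ≤ (2 * Real.sqrt (∑ n ∈ B, (‖η n‖ / 2) ^ 2 + R ^ 2)) ^ 2 :=
          pow_le_pow_left₀ (norm_nonneg _) hynorm 2
      _ = 4 * (∑ n ∈ B, (‖η n‖ / 2) ^ 2 + R ^ 2) := by
          rw [mul_pow, Real.sq_sqrt h0]; norm_num
      _ = ∑ n ∈ B, ‖η n‖ ^ 2 + 16 * (R / 2) ^ 2 := by
          rw [mul_add, Finset.mul_sum]
          congr 1
          · exact Finset.sum_congr rfl fun n _ => by ring
          · ring
  obtain ⟨hG0, hG3⟩ := node_ineq B (fun n => pos (z n)) (fun n => pos (-(z n))) g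
    (fun n => ‖η n‖) (fun n _ => pos_nonneg _) (fun n _ => pos_nonneg _) hg0
    (fun n _ => norm_nonneg _) hg2 (R / 2) a ‖y‖ (by positivity) (norm_nonneg _) hY2 U (U' - U)
    hU (by rw [hU']; ring)
  refine ⟨U' - U, hG0, ?_, ?_⟩
  · rw [hposx]; linarith
  · rw [hposx, hposnx]; exact hG3

theorem good_step (a : ℝ) (B : Finset ℕ) (z : ∀ n, E n) (hz : ∀ n ∈ B, Good (z n)) :
    Good (mkStep a (∑ n ∈ B, lp.single 2 n (z n)) : Step E) := by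
  have h1 : ∀ n, ∃ L : List (E n →L[ℝ] ℝ), n ∈ B → ∀ y : E n, (∀ f ∈ L, f y = 0) →
      mass y = 0 ∧ ∃ g : ℝ, 0 ≤ g ∧ 2 * pos (z n) + 2 * g ≤ pos (z n + y) + pos (z n - y) ∧
        ‖y‖ ^ 3 ≤ 64 * (g * (2 * pos (z n) + g) * (2 * pos (-(z n)) + g)) := by
    intro n
    by_cases hn : n ∈ B
    · obtain ⟨L, hL⟩ := hz n hn
      exact ⟨L, fun _ => hL⟩
    · exact ⟨[], fun h => absurd h hn⟩
  choose L hL using h1
  refine ⟨stepMass :: B.toList.flatMap (fun n => (L n).map fun f => f.comp (stepEval n)), ?_⟩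
  intro y hy
  have hy1 : y.1 = 0 := hy stepMass (List.mem_cons_self)
  have hyn : ∀ n ∈ B, ∀ f ∈ L n, f (y.2 n) = 0 := by
    intro n hn f hf
    have := hy (f.comp (stepEval n)) (List.mem_cons_of_mem _ (List.mem_flatMap.mpr
      ⟨n, Finset.mem_toList.mpr hn, List.mem_map.mpr ⟨f, hf, rfl⟩⟩))
    simpa [stepEval_apply] using this
  have h2 : ∀ n, ∃ g : ℝ, n ∈ B → (0 ≤ g ∧
      2 * pos (z n) + 2 * g ≤ pos (z n + y.2 n) + pos (z n - y.2 n) ∧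
        ‖y.2 n‖ ^ 3 ≤ 64 * (g * (2 * pos (z n) + g) * (2 * pos (-(z n)) + g))) := by
    intro n
    by_cases hn : n ∈ B
    · obtain ⟨_, g, hg⟩ := hL n hn (y.2 n) (hyn n hn)
      exact ⟨g, fun _ => hg⟩
    · exact ⟨0, fun h => absurd h hn⟩
  choose g hg using h2
  refine ⟨hy1, ?_⟩
  exact good_step_core a B z y hy1 g (fun n hn => (hL n hn (y.2 n) (hyn n hn)).1)
    (fun n hn => (hg n hn).1) (fun n hn => (hg n hn).2.1) (fun n hn => (hg n hn).2.2)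

end Vale.Agent.Lib.P069
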