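import Vale.Agent.Lib.P069.Flat
import Vale.Agent.Lib.P069.Moduli

/-!
# P069: flat trees of all heights exclude AUC renormings (module N)

ROUTE.  Let `c1 * ‖x‖ ≤ N x ≤ C * ‖x‖` and suppose `N` is AUC.  Put `t0 = c1 / (2 * C)` and take
`c > 0` from `IsAUC.forall` at `t0`.

(1) `exists_mem_near`: if `F ∈ Cof W` and `η` is weakly null then for every `ε > 0` there are
    `n0` and, for `n ≥ n0`, `y ∈ F` with `‖η n - y‖ < ε`.  Proof: `W ⧸ F` is a finite dimensional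
    normed space (`F` closed); every linear functional on it is continuous, so all coordinates
    of `F.mkQ (η n)` in a basis tend to `0`, hence `‖F.mkQ (η n)‖ → 0`; then use the definition
    of the quotient norm.
(2) convexity: if `N x = 1`, `N y = 1`, `1 + c ≤ N (x + t0 • y)` and `t0 ≤ τ` then
    `1 + c ≤ N (x + τ • y)`   (write `x + t0 • y` as a convex combination of `x` and `x + τ • y`).
(3) one step: if `x ≠ 0`, `‖x‖ ≤ 1`, and `η` is weakly null with `1 ≤ ‖η n‖` then there is `n`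
    with `(1 + c / 2) * N x ≤ N (x + η n)`.   (Normalise `x`, take `F`, take `y ∈ F` close to
    `η n`, `N y ≥ c1 / 2`, so `τ = N y / N x ≥ t0`.)
(4) induction on `k`: `Flat k x`, `‖x‖ ≤ 1`, `x ≠ 0` give `x'` with `‖x'‖ ≤ 1` and
    `(1 + c / 2) ^ k * N x ≤ N x'`.   Then `(1 + c / 2) ^ k * c1 ≤ C` for all `k`: contradiction
    (`one_add_mul_le_pow` or `tendsto_pow_atTop_atTop_of_one_lt`).
(5) `not_finiteDimensional_of_flat`: if `W` is finite dimensional then `⊥ ∈ Cof W`; apply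
    `exists_mem_near` with `ε = 1` to get `‖η n‖ < 1`, contradiction.
-/

open Filter Topology

namespace Vale.Agent.Lib.P069

theorem exists_mem_near {W : Type} [NormedAddCommGroup W] [NormedSpace ℝ W]
    (F : Submodule ℝ W) (hF : F ∈ Cof W) (η : ℕ → W)
    (hη : ∀ f : W →L[ℝ] ℝ, Tendsto (fun n => f (η n)) atTop (𝓝 0)) (ε : ℝ) (hε : 0 < ε) :
    ∃ n0 : ℕ, ∀ n, n0 ≤ n → ∃ y ∈ F, ‖η n - y‖ < ε := by
  obtain ⟨hcl, hfd⟩ := hF
  have : IsClosed (F : Set W) := hcl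
  have : FiniteDimensional ℝ (W ⧸ F) := hfd
  set b := Module.finBasis ℝ (W ⧸ F) with hb
  have hcoord : ∀ i, Tendsto (fun n => b.repr (F.mkQ (η n)) i) atTop (𝓝 0) := by
    intro i
    have hc : Continuous (b.coord i) := LinearMap.continuous_of_finiteDimensional _
    set g : (W ⧸ F) →L[ℝ] ℝ := ⟨b.coord i, hc⟩ with hg
    have := hη (g.comp F.mkQL)
    simpa [hg] using this
  have hq : Tendsto (fun n => F.mkQ (η n)) atTop (𝓝 0) := by
    have h1 : ∀ n, F.mkQ (η n) = ∑ i, b.repr (F.mkQ (η n)) i • b i := fun n =>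
      (b.sum_repr _).symm
    have h2 : Tendsto (fun n => ∑ i, b.repr (F.mkQ (η n)) i • b i) atTop
        (𝓝 (∑ i, (0 : ℝ) • b i)) :=
      tendsto_finsetSum _ fun i _ => (hcoord i).smul_const _
    simp only [zero_smul, Finset.sum_const_zero] at h2
    exact h2.congr fun n => (h1 n).symm
  have hn : Tendsto (fun n => ‖F.mkQ (η n)‖) atTop (𝓝 0) := by
    simpa using hq.norm
  have hev := hn.eventually (gt_mem_nhds (half_pos hε))
  obtain ⟨n0, hn0⟩ := eventually_atTop.1 hev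
  refine ⟨n0, fun n hn => ?_⟩
  obtain ⟨m, hm, hmn⟩ := Submodule.Quotient.norm_mk_lt (F.mkQ (η n)) (half_pos hε)
  refine ⟨η n - m, ?_, ?_⟩
  · have : Submodule.Quotient.mk (p := F) (η n) = Submodule.Quotient.mk m := hm.symm
    exact (Submodule.Quotient.eq F).1 this
  · have h3 := hn0 n hn
    simp only [sub_sub_cancel]
    linarith

theorem not_finiteDimensional_of_flat {W : Type} [NormedAddCommGroup W] [NormedSpace ℝ W]
    (x : W) (h : Flat 1 x) : ¬ FiniteDimensional ℝ W := by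
  intro hfd
  obtain ⟨η, h1, hη, -⟩ := h
  have hbot : (⊥ : Submodule ℝ W) ∈ Cof W := by
    refine ⟨?_, inferInstance⟩
    simp
  obtain ⟨n0, hn0⟩ := exists_mem_near ⊥ hbot η hη 1 one_pos
  obtain ⟨y, hy, hlt⟩ := hn0 n0 le_rfl
  rw [Submodule.mem_bot] at hy
  rw [hy, sub_zero] at hlt
  exact absurd (h1 n0) (not_le.2 hlt)

theorem auc_convex {W : Type} [NormedAddCommGroup W] [NormedSpace ℝ W] (N : Seminorm ℝ W)
    (x y : W) (c t0 τ : ℝ) (hc : 0 < c) (ht0 : 0 < t0) (hτ : t0 ≤ τ) (hx : N x = 1)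
    (h : 1 + c ≤ N (x + t0 • y)) : 1 + c ≤ N (x + τ • y) := by
  have hτ0 : 0 < τ := lt_of_lt_of_le ht0 hτ
  set lam : ℝ := t0 / τ with hlam
  have hl0 : 0 < lam := div_pos ht0 hτ0
  have hl1 : lam ≤ 1 := (div_le_one hτ0).2 hτ
  have hlt : lam * τ = t0 := by rw [hlam]; field_simp
  have hsplit : x + t0 • y = (1 - lam) • x + lam • (x + τ • y) := by
    rw [smul_add, smul_smul, hlt, sub_smul, one_smul]
    abel
  have h1 : N (x + t0 • y) ≤ (1 - lam) * N x + lam * N (x + τ • y) := by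
    rw [hsplit]
    refine (map_add_le_add N _ _).trans ?_
    rw [map_smul_eq_mul, map_smul_eq_mul, Real.norm_eq_abs, Real.norm_eq_abs,
      abs_of_nonneg (by linarith), abs_of_pos hl0]
  rw [hx] at h1
  nlinarith

theorem auc_step {W : Type} [NormedAddCommGroup W] [NormedSpace ℝ W] (N : Seminorm ℝ W)
    (c1 C c : ℝ) (hc1 : 0 < c1) (hC : 0 < C) (hc : 0 < c)
    (hN : ∀ x : W, c1 * ‖x‖ ≤ N x ∧ N x ≤ C * ‖x‖)
    (hauc : ∀ x : W, N x = 1 → ∃ F ∈ Cof W, ∀ y ∈ F, N y = 1 →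
      1 + c ≤ N (x + (c1 / (2 * C)) • y))
    (x : W) (hx0 : x ≠ 0) (hx1 : ‖x‖ ≤ 1) (η : ℕ → W) (h1 : ∀ n, 1 ≤ ‖η n‖)
    (hη : ∀ f : W →L[ℝ] ℝ, Tendsto (fun n => f (η n)) atTop (𝓝 0)) :
    ∃ n, (1 + c / 2) * N x ≤ N (x + η n) := by
  set a : ℝ := N x with ha
  have hxn : 0 < ‖x‖ := norm_pos_iff.2 hx0
  have ha0 : 0 < a := lt_of_lt_of_le (mul_pos hc1 hxn) (hN x).1
  have haC : a ≤ C := (hN x).2.trans (by nlinarith)
  have hxh : N (a⁻¹ • x) = 1 := by
    rw [map_smul_eq_mul, Real.norm_eq_abs, abs_of_pos (inv_pos.2 ha0), ← ha]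
    field_simp
  obtain ⟨F, hF, hFy⟩ := hauc _ hxh
  set ε : ℝ := min (c1 / (2 * C)) (c * a / (2 * C)) with hε
  have hε0 : 0 < ε := lt_min (by positivity) (by positivity)
  have hε1 : C * ε ≤ c1 / 2 := by
    have : ε ≤ c1 / (2 * C) := min_le_left _ _
    calc C * ε ≤ C * (c1 / (2 * C)) := by gcongr
      _ = c1 / 2 := by field_simp
  have hε2 : C * ε ≤ c * a / 2 := by
    have : ε ≤ c * a / (2 * C) := min_le_right _ _
    calc C * ε ≤ C * (c * a / (2 * C)) := by gcongr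
      _ = c * a / 2 := by field_simp
  obtain ⟨n0, hn0⟩ := exists_mem_near F hF η hη ε hε0
  obtain ⟨y, hyF, hy⟩ := hn0 n0 le_rfl
  refine ⟨n0, ?_⟩
  have hd : N (η n0 - y) ≤ C * ε := (hN _).2.trans (by gcongr)
  have hNη : c1 ≤ N (η n0) := by
    have := (hN (η n0)).1
    nlinarith [h1 n0]
  have hNy : c1 / 2 ≤ N y := by
    have h2 : N (η n0) ≤ N (η n0 - y) + N y := by
      have := map_add_le_add N (η n0 - y) y
      simpa using this
    linarith
  set s : ℝ := N y with hs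
  have hs0 : 0 < s := by linarith
  have hyh : N (s⁻¹ • y) = 1 := by
    rw [map_smul_eq_mul, Real.norm_eq_abs, abs_of_pos (inv_pos.2 hs0), ← hs]
    field_simp
  have hyhF : s⁻¹ • y ∈ F := F.smul_mem _ hyF
  have h3 := hFy _ hyhF hyh
  have hτ : c1 / (2 * C) ≤ s / a := by
    rw [div_le_div_iff₀ (by positivity) ha0]
    nlinarith
  have h4 := auc_convex N (a⁻¹ • x) (s⁻¹ • y) c (c1 / (2 * C)) (s / a) hc (by positivity) hτ hxh h3
  have h5 : a⁻¹ • x + (s / a) • s⁻¹ • y = a⁻¹ • (x + y) := by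
    rw [smul_smul, smul_add]
    congr 2
    field_simp
  rw [h5, map_smul_eq_mul, Real.norm_eq_abs, abs_of_pos (inv_pos.2 ha0)] at h4
  have h6 : (1 + c) * a ≤ N (x + y) := by
    have := mul_le_mul_of_nonneg_left h4 ha0.le
    rw [← mul_assoc, mul_inv_cancel₀ ha0.ne', one_mul] at this
    linarith
  have h7 : N (x + y) ≤ N (x + η n0) + N (η n0 - y) := by
    have := map_add_le_add N (x + η n0) (-(η n0 - y))
    rw [map_neg_eq_map] at this
    have e : x + η n0 + -(η n0 - y) = x + y := by abel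
    rwa [e] at this
  nlinarith

theorem auc_iter {W : Type} [NormedAddCommGroup W] [NormedSpace ℝ W] (N : Seminorm ℝ W)
    (c1 C c : ℝ) (hc1 : 0 < c1) (hC : 0 < C) (hc : 0 < c)
    (hN : ∀ x : W, c1 * ‖x‖ ≤ N x ∧ N x ≤ C * ‖x‖)
    (hauc : ∀ x : W, N x = 1 → ∃ F ∈ Cof W, ∀ y ∈ F, N y = 1 →
      1 + c ≤ N (x + (c1 / (2 * C)) • y)) (k : ℕ) :
    ∀ x : W, Flat k x → ‖x‖ ≤ 1 → x ≠ 0 → ∃ x' : W, ‖x'‖ ≤ 1 ∧ (1 + c / 2) ^ k * N x ≤ N x' := by
  induction k with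
  | zero =>
    intro x _ hx1 _
    exact ⟨x, hx1, by simp⟩
  | succ k ih =>
    intro x hfl hx1 hx0
    obtain ⟨η, h1, hη, hnode⟩ := hfl
    obtain ⟨n, hn⟩ := auc_step N c1 C c hc1 hC hc hN hauc x hx0 hx1 η h1 hη
    have hxn : 0 < ‖x‖ := norm_pos_iff.2 hx0
    have ha0 : 0 < N x := lt_of_lt_of_le (mul_pos hc1 hxn) (hN x).1
    have hne : x + η n ≠ 0 := by
      intro h0
      rw [h0, map_zero] at hn
      nlinarith
    obtain ⟨x', hx', hle⟩ := ih (x + η n) (hnode n).2 (hnode n).1 hne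
    refine ⟨x', hx', le_trans ?_ hle⟩
    have hp : 0 ≤ (1 + c / 2) ^ k := by positivity
    calc (1 + c / 2) ^ (k + 1) * N x = (1 + c / 2) ^ k * ((1 + c / 2) * N x) := by ring
      _ ≤ (1 + c / 2) ^ k * N (x + η n) := by gcongr

theorem not_isAUC_of_flat {W : Type} [NormedAddCommGroup W] [NormedSpace ℝ W]
    (h : ∀ k : ℕ, ∃ x : W, ‖x‖ = 1 ∧ Flat k x) (N : Seminorm ℝ W) (hN : IsEquivNorm N) :
    ¬ IsAUC N := by
  intro hA
  obtain ⟨c1, C, hc1, hC, hN⟩ := hN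
  obtain ⟨c, hc, hauc⟩ := hA.forall (c1 / (2 * C)) (by positivity)
  obtain ⟨k, hk⟩ := exists_nat_gt (C / (c / 2 * c1))
  obtain ⟨x, hx1, hfl⟩ := h k
  have hx0 : x ≠ 0 := by
    intro h0
    rw [h0, norm_zero] at hx1
    exact zero_ne_one hx1
  obtain ⟨x', hx', hle⟩ := auc_iter N c1 C c hc1 hC hc hN hauc k x hfl hx1.le hx0
  have h1 : c1 ≤ N x := by
    have := (hN x).1
    rwa [hx1, mul_one] at this
  have h2 : N x' ≤ C := (hN x').2.trans (by nlinarith)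
  have h3 : 1 + (k : ℝ) * (c / 2) ≤ (1 + c / 2) ^ k :=
    one_add_mul_le_pow (by linarith) k
  have h4 : C < (k : ℝ) * (c / 2 * c1) := by
    rwa [div_lt_iff₀ (by positivity)] at hk
  have h5 : (1 + (k : ℝ) * (c / 2)) * c1 ≤ (1 + c / 2) ^ k * N x := by
    have hp : 0 ≤ (1 + c / 2) ^ k := by positivity
    calc (1 + (k : ℝ) * (c / 2)) * c1 ≤ (1 + c / 2) ^ k * c1 := by gcongr
      _ ≤ (1 + c / 2) ^ k * N x := by gcongr
  nlinarith

end Vale.Agent.Lib.P069
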