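import Vale.Agent.Lib.P069.StepApi

/-!
# P069: reflexivity passes to the step construction (module R)

ROUTE for `reflexive_step`.  Let `Φ` be in the bidual of `Z = Step E`.
* For each `n`, `g ↦ Φ (g.comp (stepEval n))` is in the bidual of `E n`; reflexivity gives `x n`
  with `Φ (g.comp (stepEval n)) = g (x n)` for all `g`.  Put `a0 = Φ stepMass`.
* `∑ n ∈ s, ‖x n‖ ^ 2 ≤ ‖Φ‖ ^ 2` for every finset `s`: take norming functionals `g n`
  (`exists_dual_vector''`), `f = ∑ n ∈ s, ‖x n‖ • (g n).comp (stepEval n)`; then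
  `‖f‖ ≤ sqrt (∑ ‖x n‖ ^ 2)` by Cauchy-Schwarz and `norm_snd_le_norm` (`‖x.2‖ ≤ ‖x‖`), and
  `Φ f = ∑ ‖x n‖ ^ 2`.  So `ξ = (x n)ₙ` is in `lp E 2`; candidate `x = mkStep a0 ξ`.
* For `f` in the dual of `Z` put `f n = f.comp (stepInr.comp (single n))`.
  `∑ ‖f n‖ ^ 2 ≤ (2 ‖f‖) ^ 2` (test on `∑ n ∈ s, c n • v n` with almost norming `v n`, using
  `step_norm_le`), and the tails `f - f pt • stepMass - ∑ n ∈ s, (f n).comp (stepEval n)`
  have norm at most `sqrt (∑ n ∉ s, ‖f n‖ ^ 2)`; they tend to `0`.  By continuity of `Φ`,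
  `Φ f = f pt * a0 + ∑' n, f n (x n) = f (mkStep a0 ξ)` (`lp.hasSum_single`).
An alternative is to prove the lemma for `lp E 2` and transport it along `stepEquiv`.
-/

open scoped ENNReal

namespace Vale.Agent.Lib.P069

/-- Reflexivity: the canonical embedding into the bidual is onto. -/
def Reflexive (W : Type) [NormedAddCommGroup W] [NormedSpace ℝ W] : Prop :=
  Function.Surjective (NormedSpace.inclusionInDoubleDual ℝ W)

theorem reflexive_real : Reflexive ℝ := by
  intro Φ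
  refine ⟨Φ (ContinuousLinearMap.id ℝ ℝ), ?_⟩
  ext f
  rw [NormedSpace.dual_def]
  have hf : f = (f 1) • ContinuousLinearMap.id ℝ ℝ := by
    ext
    simp
  conv_rhs => rw [hf]
  rw [map_smul, smul_eq_mul]
  have : f (Φ (ContinuousLinearMap.id ℝ ℝ)) = f (Φ (ContinuousLinearMap.id ℝ ℝ) • (1 : ℝ)) := by
    simp
  rw [this, map_smul, smul_eq_mul, mul_comm]

section general

variable {W W' : Type} [NormedAddCommGroup W] [NormedSpace ℝ W]
  [NormedAddCommGroup W'] [NormedSpace ℝ W']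

theorem Reflexive.of_equiv (e : W ≃L[ℝ] W') (h : Reflexive W') : Reflexive W := by
  intro Φ
  obtain ⟨y, hy⟩ := h (Φ.comp ((ContinuousLinearMap.compL ℝ W W' ℝ).flip (e : W →L[ℝ] W')))
  refine ⟨e.symm y, ?_⟩
  ext f
  rw [NormedSpace.dual_def]
  have h1 := congrArg (fun Ψ => Ψ (f.comp (e.symm : W' →L[ℝ] W))) hy
  simp only [NormedSpace.dual_def] at h1
  have h2 : (f.comp (e.symm : W' →L[ℝ] W)).comp (e : W →L[ℝ] W') = f := by
    ext x
    simp
  simpa [h2] using h1

theorem Reflexive.prod (h : Reflexive W) (h' : Reflexive W') : Reflexive (W × W') := by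
  intro Φ
  obtain ⟨x, hx⟩ := h (Φ.comp ((ContinuousLinearMap.compL ℝ (W × W') W ℝ).flip
    (ContinuousLinearMap.fst ℝ W W')))
  obtain ⟨y, hy⟩ := h' (Φ.comp ((ContinuousLinearMap.compL ℝ (W × W') W' ℝ).flip
    (ContinuousLinearMap.snd ℝ W W')))
  refine ⟨(x, y), ?_⟩
  ext f
  rw [NormedSpace.dual_def]
  have h1 := congrArg (fun Ψ => Ψ (f.comp (ContinuousLinearMap.inl ℝ W W'))) hx
  have h2 := congrArg (fun Ψ => Ψ (f.comp (ContinuousLinearMap.inr ℝ W W'))) hy
  simp only [NormedSpace.dual_def] at h1 h2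
  have h3 : f = (f.comp (ContinuousLinearMap.inl ℝ W W')).comp (ContinuousLinearMap.fst ℝ W W')
      + (f.comp (ContinuousLinearMap.inr ℝ W W')).comp (ContinuousLinearMap.snd ℝ W W') := by
    ext p
    · simp [Prod.mk_zero_zero]
    · simp [Prod.mk_zero_zero]
  have h4 : f (x, y) = f (x, 0) + f (0, y) := by
    rw [← map_add]; simp
  conv_rhs => rw [h3]
  rw [map_add, h4]
  simp only [ContinuousLinearMap.comp_apply, ContinuousLinearMap.inl_apply,
    ContinuousLinearMap.inr_apply, ContinuousLinearMap.flip_apply,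
    ContinuousLinearMap.compL_apply] at h1 h2
  rw [h1, h2]

end general


section lpdual

variable {F : ℕ → Type} [∀ n, NormedAddCommGroup (F n)] [∀ n, NormedSpace ℝ (F n)]

/-- The components of a functional on an `l2` sum. -/
noncomputable def dualComp (f : StrongDual ℝ (lp F 2)) (n : ℕ) : StrongDual ℝ (F n) :=
  f.comp (lp.singleContinuousLinearMap ℝ F 2 n)

theorem exists_half_norming {W : Type} [NormedAddCommGroup W] [NormedSpace ℝ W]
    (g : StrongDual ℝ W) : ∃ v : W, ‖v‖ ≤ 1 ∧ ‖g‖ / 2 ≤ g v := by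
  rcases eq_or_lt_of_le (norm_nonneg g) with h0 | h0
  · exact ⟨0, by simp, by simp [← h0]⟩
  · obtain ⟨x, hx1, hx2⟩ := g.exists_lt_apply_of_lt_opNorm (half_lt_self h0)
    rw [Real.norm_eq_abs] at hx2
    rcases le_total 0 (g x) with hg | hg
    · exact ⟨x, hx1.le, by rw [abs_of_nonneg hg] at hx2; exact hx2.le⟩
    · refine ⟨-x, by rw [norm_neg]; exact hx1.le, ?_⟩
      rw [abs_of_nonpos hg] at hx2
      rw [map_neg]; exact hx2.le

theorem toReal_two : (2 : ℝ≥0∞).toReal = 2 := by norm_num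

theorem sum_sq_dualComp_le (f : StrongDual ℝ (lp F 2)) (s : Finset ℕ) :
    ∑ n ∈ s, ‖dualComp f n‖ ^ 2 ≤ (2 * ‖f‖) ^ 2 := by
  choose v hv1 hv2 using fun n => exists_half_norming (dualComp f n)
  set S : ℝ := ∑ n ∈ s, ‖dualComp f n‖ ^ 2 with hS
  have hS0 : 0 ≤ S := Finset.sum_nonneg fun n _ => by positivity
  set z : lp F 2 := ∑ n ∈ s, lp.single 2 n (‖dualComp f n‖ • v n) with hz
  have hznorm : ‖z‖ ^ 2 ≤ S := by
    have h := lp.norm_sum_single (p := 2) (E := F) (by norm_num)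
      (fun n => ‖dualComp f n‖ • v n) s
    rw [toReal_two] at h
    simp only [Real.rpow_two] at h
    rw [hz, h, hS]
    refine Finset.sum_le_sum fun n _ => ?_
    rw [norm_smul, norm_norm, mul_pow]
    have : ‖v n‖ ^ 2 ≤ 1 := by
      have := hv1 n
      have h0 := norm_nonneg (v n)
      nlinarith
    have h2 : 0 ≤ ‖dualComp f n‖ ^ 2 := by positivity
    nlinarith
  have hfz : S / 2 ≤ f z := by
    rw [hz, map_sum, hS, Finset.sum_div]
    refine Finset.sum_le_sum fun n _ => ?_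
    have h1 : f (lp.single 2 n (‖dualComp f n‖ • v n)) = ‖dualComp f n‖ * dualComp f n (v n) := by
      rw [← smul_eq_mul, ← map_smul]; rfl
    rw [h1]
    have := hv2 n
    have h0 := norm_nonneg (dualComp f n)
    nlinarith
  have hle : f z ≤ ‖f‖ * ‖z‖ := le_trans (le_abs_self _) (f.le_opNorm z)
  have h1 : S / 2 ≤ ‖f‖ * ‖z‖ := le_trans hfz hle
  have h2 : (S / 2) ^ 2 ≤ (‖f‖ * ‖z‖) ^ 2 := by
    have : 0 ≤ S / 2 := by positivity
    gcongr
  have h3 : (‖f‖ * ‖z‖) ^ 2 ≤ ‖f‖ ^ 2 * S := by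
    rw [mul_pow]
    have : 0 ≤ ‖f‖ ^ 2 := by positivity
    nlinarith
  rcases eq_or_lt_of_le hS0 with h0 | h0
  · rw [← h0]; positivity
  · have h4 : S * S ≤ (4 * ‖f‖ ^ 2) * S := by nlinarith
    have := le_of_mul_le_mul_right h4 h0
    nlinarith

theorem memℓp_dualComp (f : StrongDual ℝ (lp F 2)) : Memℓp (dualComp f) 2 := by
  refine memℓp_gen' (C := (2 * ‖f‖) ^ 2) fun s => ?_
  rw [toReal_two]
  simp only [Real.rpow_two]
  exact sum_sq_dualComp_le f s

/-- The components of a functional, as an element of the `l2` sum of the duals. -/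
noncomputable def dualSeq (f : StrongDual ℝ (lp F 2)) : lp (fun n => StrongDual ℝ (F n)) 2 :=
  ⟨dualComp f, memℓp_dualComp f⟩

/-- The pairing of the `l2` sum of the duals with the `l2` sum. -/
noncomputable def pairing : lp (fun n => StrongDual ℝ (F n)) 2 →L[ℝ] StrongDual ℝ (lp F 2) :=
  lp.dualPairing 2 2 (fun n => ContinuousLinearMap.id ℝ (StrongDual ℝ (F n))) (K := 1)
    (fun _ => by simpa using ContinuousLinearMap.norm_id_le)

theorem pairing_apply (φ : lp (fun n => StrongDual ℝ (F n)) 2) (x : lp F 2) :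
    pairing φ x = ∑' n, φ n (x n) := by
  unfold pairing
  rw [lp.dualPairing_apply]
  rfl

theorem pairing_dualSeq (f : StrongDual ℝ (lp F 2)) : pairing (dualSeq f) = f := by
  refine lp.ext_continuousLinearMap (by norm_num) fun i => ?_
  ext v
  simp only [ContinuousLinearMap.comp_apply, lp.singleContinuousLinearMap_apply]
  rw [pairing_apply, tsum_eq_single i]
  · rw [lp.single_apply_self]; rfl
  · intro n hn
    rw [lp.single_apply_ne _ _ _ hn, map_zero]



theorem reflexive_lp (h : ∀ n, Reflexive (F n)) : Reflexive (lp F 2) := by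
  intro Φ
  set Ψ : StrongDual ℝ (lp (fun n => StrongDual ℝ (F n)) 2) := Φ.comp pairing with hΨ
  choose x hx using fun n => h n (dualComp Ψ n)
  have hnorm : ∀ n, ‖x n‖ = ‖dualComp Ψ n‖ := fun n => by
    rw [← hx n]
    exact ((NormedSpace.inclusionInDoubleDualLi (E := F n) ℝ).norm_map (x n)).symm
  have hmem : Memℓp x 2 := by
    refine memℓp_gen' (C := (2 * ‖Ψ‖) ^ 2) fun s => ?_
    rw [toReal_two]
    simp only [Real.rpow_two, hnorm]
    exact sum_sq_dualComp_le Ψ s
  refine ⟨⟨x, hmem⟩, ?_⟩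
  ext f
  rw [NormedSpace.dual_def]
  have h1 : Φ f = Ψ (dualSeq f) := by
    rw [hΨ, ContinuousLinearMap.comp_apply, pairing_dualSeq]
  rw [h1]
  conv_lhs => rw [← pairing_dualSeq f]
  conv_rhs => rw [← pairing_dualSeq Ψ]
  rw [pairing_apply, pairing_apply]
  refine tsum_congr fun n => ?_
  have h2 := congrArg (fun T => T (dualSeq f n)) (hx n)
  simp only [NormedSpace.dual_def] at h2
  exact h2

end lpdual

variable {E : ℕ → Type} [∀ n, NormedAddCommGroup (E n)] [∀ n, NormedSpace ℝ (E n)]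
  [∀ n, SignedSpace (E n)]

theorem reflexive_step (h : ∀ n, Reflexive (E n)) : Reflexive (Step E) :=
  Reflexive.of_equiv stepEquiv (Reflexive.prod reflexive_real (reflexive_lp h))

end Vale.Agent.Lib.P069
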