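import Mathlib

/-!
# P069: signed spaces

A signed space is a real normed space whose norm is `pos x + pos (-x)` for a sublinear
functional `pos` (the positive mass), with `pos x - pos (-x)` a linear functional (the mass)
and a distinguished point mass `pt`.
-/

namespace Vale.Agent.Lib.P069

/-- A normed space with a positive-part functional. -/
class SignedSpace (E : Type) [NormedAddCommGroup E] [NormedSpace ℝ E] where
  /-- the positive mass -/
  pos : E → ℝ
  /-- the total mass -/
  mass : E →L[ℝ] ℝ
  /-- the point mass at the root -/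
  pt : E
  pos_nonneg : ∀ x, 0 ≤ pos x
  pos_add_le : ∀ x y, pos (x + y) ≤ pos x + pos y
  pos_smul : ∀ (c : ℝ) (x : E), 0 ≤ c → pos (c • x) = c * pos x
  pos_sub_neg : ∀ x, pos x - pos (-x) = mass x
  norm_eq : ∀ x, ‖x‖ = pos x + pos (-x)
  pos_pt : pos pt = 1
  pos_neg_pt : pos (-pt) = 0

export SignedSpace (pos mass pt pos_nonneg pos_add_le pos_smul pos_sub_neg norm_eq pos_pt
  pos_neg_pt)

section basic

variable {E : Type} [NormedAddCommGroup E] [NormedSpace ℝ E] [SignedSpace E]

theorem pos_le_norm (x : E) : pos x ≤ ‖x‖ := by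
  rw [norm_eq x]; linarith [pos_nonneg (-x)]

theorem pos_neg_le_norm (x : E) : pos (-x) ≤ ‖x‖ := by
  rw [norm_eq x]; linarith [pos_nonneg x]

theorem pos_zero : pos (0 : E) = 0 := by
  have := pos_smul (0 : ℝ) (0 : E) le_rfl
  simpa using this

theorem norm_pt : ‖(pt : E)‖ = 1 := by
  rw [norm_eq, pos_pt, pos_neg_pt]; norm_num

theorem mass_pt : mass (pt : E) = 1 := by
  rw [← pos_sub_neg, pos_pt, pos_neg_pt]; norm_num

theorem pos_neg_eq (x : E) : pos (-x) = pos x - mass x := by
  rw [← pos_sub_neg]; ring

theorem norm_eq_two_pos (x : E) : ‖x‖ = 2 * pos x - mass x := by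
  rw [norm_eq, pos_neg_eq]; ring

theorem abs_pos_sub_le (x y : E) : |pos x - pos y| ≤ ‖x - y‖ := by
  have h1 := pos_add_le (x - y) y
  have h2 := pos_add_le (y - x) x
  have h3 := pos_le_norm (x - y)
  have h4 := pos_le_norm (y - x)
  rw [norm_sub_rev] at h4
  simp only [sub_add_cancel] at h1 h2
  rw [abs_le]; constructor <;> linarith

end basic

/-- The real line as a signed space. -/
noncomputable instance : SignedSpace ℝ where
  pos x := max x 0
  mass := ContinuousLinearMap.id ℝ ℝ
  pt := 1
  pos_nonneg x := le_max_right _ _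
  pos_add_le x y := by
    rcases le_total x 0 with hx | hx <;> rcases le_total y 0 with hy | hy <;>
      rcases le_total (x + y) 0 with hxy | hxy <;>
      simp [max_eq_left, max_eq_right, hx, hy, hxy] <;> linarith
  pos_smul c x hc := by
    rcases le_total x 0 with hx | hx
    · have : c * x ≤ 0 := mul_nonpos_of_nonneg_of_nonpos hc hx
      simp [max_eq_right, hx, this]
    · have : 0 ≤ c * x := mul_nonneg hc hx
      simp [max_eq_left, hx, this]
  pos_sub_neg x := by
    rcases le_total x 0 with hx | hx
    · simp [max_eq_right, max_eq_left, hx]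
    · simp [max_eq_right, max_eq_left, hx]
  norm_eq x := by
    rcases le_total x 0 with hx | hx
    · simp [max_eq_right, max_eq_left, hx, abs_of_nonpos]
    · simp [max_eq_right, max_eq_left, hx, abs_of_nonneg]
  pos_pt := by simp
  pos_neg_pt := by simp

end Vale.Agent.Lib.P069
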