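import Vale.Agent.Lib.P069.Signed

/-!
# P069: the step construction

`Step E` is `ℝ × lp E 2` with the positive mass
`pos (a, μ) = max ‖(pos (μ n))ₙ‖₂ (a + ‖(pos (-μ n))ₙ‖₂)`.
-/

open scoped ENNReal

namespace Vale.Agent.Lib.P069

section defs

variable (E : ℕ → Type) [∀ n, NormedAddCommGroup (E n)]

/-- The underlying type of the step construction. -/
def Step : Type := ℝ × lp E 2

noncomputable instance : AddCommGroup (Step E) := inferInstanceAs (AddCommGroup (ℝ × lp E 2))

noncomputable instance [∀ n, NormedSpace ℝ (E n)] : Module ℝ (Step E) :=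
  inferInstanceAs (Module ℝ (ℝ × lp E 2))

/-- The element of `Step E` with first coordinate `a` and second coordinate `μ`. -/
def mkStep {E : ℕ → Type} [∀ n, NormedAddCommGroup (E n)] (a : ℝ) (μ : lp E 2) : Step E := (a, μ)

end defs

section coords

variable {E : ℕ → Type} [∀ n, NormedAddCommGroup (E n)]

@[simp] theorem mkStep_fst (a : ℝ) (μ : lp E 2) : (mkStep a μ).1 = a := rfl

@[simp] theorem mkStep_snd (a : ℝ) (μ : lp E 2) : (mkStep a μ).2 = μ := rfl

theorem mkStep_eta (x : Step E) : mkStep x.1 x.2 = x := rfl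

theorem step_ext {x y : Step E} (h1 : x.1 = y.1) (h2 : x.2 = y.2) : x = y := Prod.ext h1 h2

@[simp] theorem step_add_fst (x y : Step E) : (x + y).1 = x.1 + y.1 := rfl

@[simp] theorem step_add_snd (x y : Step E) : (x + y).2 = x.2 + y.2 := rfl

@[simp] theorem step_sub_fst (x y : Step E) : (x - y).1 = x.1 - y.1 := rfl

@[simp] theorem step_sub_snd (x y : Step E) : (x - y).2 = x.2 - y.2 := rfl

@[simp] theorem step_neg_fst (x : Step E) : (-x).1 = -x.1 := rfl

@[simp] theorem step_neg_snd (x : Step E) : (-x).2 = -x.2 := rfl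

@[simp] theorem step_zero_fst : (0 : Step E).1 = 0 := rfl

@[simp] theorem step_zero_snd : (0 : Step E).2 = 0 := rfl

@[simp] theorem step_smul_fst [∀ n, NormedSpace ℝ (E n)] (c : ℝ) (x : Step E) :
    (c • x).1 = c * x.1 := rfl

@[simp] theorem step_smul_snd [∀ n, NormedSpace ℝ (E n)] (c : ℝ) (x : Step E) :
    (c • x).2 = c • x.2 := rfl

end coords

variable {E : ℕ → Type} [∀ n, NormedAddCommGroup (E n)] [∀ n, NormedSpace ℝ (E n)]
  [∀ n, SignedSpace (E n)]

/-- The square-summable sequence of positive masses of the components. -/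
noncomputable def posSeq (μ : lp E 2) : lp (fun _ : ℕ => ℝ) 2 :=
  ⟨fun n => pos (μ n), (lp.memℓp μ).norm.mono fun n => by
    rw [Real.norm_eq_abs, abs_of_nonneg (pos_nonneg _)]; exact pos_le_norm _⟩

@[simp] theorem posSeq_apply (μ : lp E 2) (n : ℕ) : posSeq μ n = pos (μ n) := rfl

/-- The positive mass on `Step E`. -/
noncomputable def stepPos (x : Step E) : ℝ := max ‖posSeq x.2‖ (x.1 + ‖posSeq (-x.2)‖)

theorem two_ne_zero' : (2 : ℝ≥0∞) ≠ 0 := by norm_num

theorem posSeq_add_le (μ ν : lp E 2) : ‖posSeq (μ + ν)‖ ≤ ‖posSeq μ‖ + ‖posSeq ν‖ := by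
  refine le_trans ?_ (norm_add_le _ _)
  refine lp.norm_mono two_ne_zero' fun n => ?_
  simp only [lp.coeFn_add, Pi.add_apply, posSeq_apply, Real.norm_eq_abs]
  rw [abs_of_nonneg (pos_nonneg _), abs_of_nonneg (add_nonneg (pos_nonneg _) (pos_nonneg _))]
  exact pos_add_le _ _

theorem posSeq_smul (c : ℝ) (hc : 0 ≤ c) (μ : lp E 2) : posSeq (c • μ) = c • posSeq μ := by
  ext n
  simp [pos_smul c _ hc]

theorem posSeq_zero : posSeq (0 : lp E 2) = 0 := by
  ext n
  simp [pos_zero]

theorem norm_posSeq_le (μ : lp E 2) : ‖posSeq μ‖ ≤ ‖μ‖ := by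
  refine lp.norm_mono two_ne_zero' fun n => ?_
  rw [posSeq_apply, Real.norm_eq_abs, abs_of_nonneg (pos_nonneg _)]
  exact pos_le_norm _

theorem norm_le_posSeq_add (μ : lp E 2) : ‖μ‖ ≤ ‖posSeq μ‖ + ‖posSeq (-μ)‖ := by
  refine le_trans ?_ (norm_add_le _ _)
  refine lp.norm_mono two_ne_zero' fun n => ?_
  simp only [lp.coeFn_add, Pi.add_apply, posSeq_apply, Real.norm_eq_abs, lp.coeFn_neg,
    Pi.neg_apply]
  rw [abs_of_nonneg (add_nonneg (pos_nonneg _) (pos_nonneg _))]
  exact le_of_eq (norm_eq _)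

theorem stepPos_nonneg (x : Step E) : 0 ≤ stepPos x :=
  le_trans (norm_nonneg _) (le_max_left _ _)

theorem stepPos_add_le (x y : Step E) : stepPos (x + y) ≤ stepPos x + stepPos y := by
  unfold stepPos
  have h1 : ‖posSeq (x + y).2‖ ≤ ‖posSeq x.2‖ + ‖posSeq y.2‖ := posSeq_add_le _ _
  have h2 : ‖posSeq (-(x + y).2)‖ ≤ ‖posSeq (-x.2)‖ + ‖posSeq (-y.2)‖ := by
    have : -(x + y).2 = -x.2 + -y.2 := by
      show -(x.2 + y.2) = _
      abel
    rw [this]; exact posSeq_add_le _ _
  have h3 : (x + y).1 = x.1 + y.1 := rfl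
  rw [h3]
  refine max_le ?_ ?_
  · linarith [le_max_left ‖posSeq x.2‖ (x.1 + ‖posSeq (-x.2)‖),
      le_max_left ‖posSeq y.2‖ (y.1 + ‖posSeq (-y.2)‖)]
  · linarith [le_max_right ‖posSeq x.2‖ (x.1 + ‖posSeq (-x.2)‖),
      le_max_right ‖posSeq y.2‖ (y.1 + ‖posSeq (-y.2)‖)]

theorem stepPos_smul (c : ℝ) (x : Step E) (hc : 0 ≤ c) : stepPos (c • x) = c * stepPos x := by
  unfold stepPos
  have h1 : (c • x).2 = c • x.2 := rfl
  have h2 : (c • x).1 = c * x.1 := rfl
  have h3 : -(c • x.2) = c • (-x.2) := by simp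
  rw [h1, h2, h3, posSeq_smul c hc, posSeq_smul c hc, norm_smul, norm_smul, Real.norm_eq_abs,
    abs_of_nonneg hc, ← mul_add, mul_max_of_nonneg _ _ hc]

theorem stepPos_sub_neg (x : Step E) : stepPos x - stepPos (-x) = x.1 := by
  unfold stepPos
  have h1 : (-x).2 = -x.2 := rfl
  have h2 : (-x).1 = -x.1 := rfl
  rw [h1, h2, neg_neg]
  rcases le_total ‖posSeq x.2‖ (x.1 + ‖posSeq (-x.2)‖) with h | h
  · rw [max_eq_right h, max_eq_left (by linarith)]; ring
  · rw [max_eq_left h, max_eq_right (by linarith)]; ring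

theorem stepPos_abs_fst_le (x : Step E) : |x.1| ≤ stepPos x + stepPos (-x) := by
  have h := stepPos_sub_neg x
  have h1 := stepPos_nonneg x
  have h2 := stepPos_nonneg (-x)
  rw [abs_le]; constructor <;> linarith

theorem stepPos_norm_snd_le (x : Step E) : ‖x.2‖ ≤ stepPos x + stepPos (-x) := by
  have h1 : ‖posSeq x.2‖ ≤ stepPos x := le_max_left _ _
  have h2 : ‖posSeq (-x.2)‖ ≤ stepPos (-x) := le_max_left _ _
  linarith [norm_le_posSeq_add x.2]

noncomputable instance : NormedAddCommGroup (Step E) :=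
  AddGroupNorm.toNormedAddCommGroup
    { toFun := fun x => stepPos x + stepPos (-x)
      map_zero' := by
        have h : stepPos (0 : Step E) = 0 := by
          have := stepPos_smul (0 : ℝ) (0 : Step E) le_rfl
          simpa using this
        simp [h]
      add_le' := fun x y => by
        have h1 := stepPos_add_le x y
        have h2 := stepPos_add_le (-x) (-y)
        have h3 : -(x + y) = -x + -y := by abel
        rw [h3]; linarith
      neg' := fun x => by rw [neg_neg]; ring
      eq_zero_of_map_eq_zero' := fun x hx => by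
        have h1 := stepPos_abs_fst_le x
        have h2 := stepPos_norm_snd_le x
        have h3 : x.1 = 0 := by
          have : |x.1| ≤ 0 := by linarith
          exact abs_eq_zero.mp (le_antisymm this (abs_nonneg _))
        have h4 : x.2 = 0 := by
          have : ‖x.2‖ ≤ 0 := by linarith
          exact norm_eq_zero.mp (le_antisymm this (norm_nonneg _))
        exact Prod.ext h3 h4 }

theorem step_norm_def (x : Step E) : ‖x‖ = stepPos x + stepPos (-x) := rfl

theorem abs_fst_le_norm (x : Step E) : |x.1| ≤ ‖x‖ := stepPos_abs_fst_le x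

theorem norm_snd_le_norm (x : Step E) : ‖x.2‖ ≤ ‖x‖ := stepPos_norm_snd_le x

noncomputable instance : NormedSpace ℝ (Step E) where
  norm_smul_le c x := by
    rw [step_norm_def, step_norm_def, Real.norm_eq_abs]
    rcases le_total 0 c with hc | hc
    · have h : -(c • x) = c • (-x) := by simp
      rw [h, stepPos_smul c _ hc, stepPos_smul c _ hc, abs_of_nonneg hc]; linarith
    · have h1 : c • x = (-c) • (-x) := by simp
      have h2 : -(c • x) = (-c) • x := by simp
      rw [h2, stepPos_smul (-c) _ (by linarith)]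
      rw [h1, stepPos_smul (-c) _ (by linarith), abs_of_nonpos hc]; linarith

/-- The first coordinate as a continuous linear functional. -/
noncomputable def stepMass : Step E →L[ℝ] ℝ :=
  LinearMap.mkContinuous
    { toFun := fun x => x.1
      map_add' := fun _ _ => rfl
      map_smul' := fun _ _ => rfl } 1 fun x => by
    rw [one_mul, Real.norm_eq_abs]
    exact stepPos_abs_fst_le x

@[simp] theorem stepMass_apply (x : Step E) : stepMass x = x.1 := rfl

noncomputable instance : SignedSpace (Step E) where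
  pos := stepPos
  mass := stepMass
  pt := mkStep 1 0
  pos_nonneg := stepPos_nonneg
  pos_add_le := stepPos_add_le
  pos_smul := stepPos_smul
  pos_sub_neg := stepPos_sub_neg
  norm_eq := step_norm_def
  pos_pt := by
    show max ‖posSeq (0 : lp E 2)‖ ((1 : ℝ) + ‖posSeq (-(0 : lp E 2))‖) = 1
    simp [posSeq_zero]
  pos_neg_pt := by
    show max ‖posSeq (-(0 : lp E 2))‖ (-(1 : ℝ) + ‖posSeq (-(-(0 : lp E 2)))‖) = 0
    simp [posSeq_zero]

theorem pos_step_def (x : Step E) :
    pos x = max ‖posSeq x.2‖ (x.1 + ‖posSeq (-x.2)‖) := rfl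

theorem mass_step_def (x : Step E) : mass x = x.1 := rfl

theorem pt_step_def : (pt : Step E) = mkStep 1 0 := rfl

end Vale.Agent.Lib.P069
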