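import Vale.Agent.Lib.P069.Step

/-!
# P069: basic API of the step construction
-/

open scoped ENNReal

namespace Vale.Agent.Lib.P069

variable {E : ℕ → Type} [∀ n, NormedAddCommGroup (E n)] [∀ n, NormedSpace ℝ (E n)]
  [∀ n, SignedSpace (E n)]

theorem step_norm_le (x : Step E) : ‖x‖ ≤ |x.1| + 2 * ‖x.2‖ := by
  rw [step_norm_def]
  have h1 : (-x).2 = -x.2 := rfl
  have h2 : (-x).1 = -x.1 := rfl
  unfold stepPos
  rw [h1, h2, neg_neg]
  have hP := norm_posSeq_le x.2
  have hQ := norm_posSeq_le (-x.2)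
  rw [norm_neg] at hQ
  have ha := le_abs_self x.1
  have ha' := neg_abs_le x.1
  have hn := norm_nonneg x.2
  have hP0 := norm_nonneg (posSeq x.2)
  have hQ0 := norm_nonneg (posSeq (-x.2))
  rcases le_total ‖posSeq x.2‖ (x.1 + ‖posSeq (-x.2)‖) with h | h
  · rw [max_eq_right h, max_eq_left (by linarith)]; linarith
  · rw [max_eq_left h, max_eq_right (by linarith)]; linarith

/-- The identity as a linear equivalence with the product space. -/
noncomputable def stepLinEquiv : Step E ≃ₗ[ℝ] (ℝ × lp E 2) := LinearEquiv.refl ℝ (ℝ × lp E 2)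

/-- The identity as a continuous linear equivalence with the product space. -/
noncomputable def stepEquiv : Step E ≃L[ℝ] (ℝ × lp E 2) :=
  LinearEquiv.toContinuousLinearEquivOfBounds stepLinEquiv 1 3
    (fun x => by
      rw [one_mul]
      exact max_le (by rw [Real.norm_eq_abs]; exact abs_fst_le_norm x) (norm_snd_le_norm x))
    (fun p => by
      have h := step_norm_le (E := E) (mkStep p.1 p.2)
      have h1 : |p.1| ≤ ‖p‖ := by rw [← Real.norm_eq_abs]; exact norm_fst_le p
      have h2 : ‖p.2‖ ≤ ‖p‖ := norm_snd_le p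
      calc ‖stepLinEquiv.symm p‖ ≤ |p.1| + 2 * ‖p.2‖ := h
        _ ≤ 3 * ‖p‖ := by linarith)

theorem stepEquiv_apply (x : Step E) : stepEquiv x = (x.1, x.2) := rfl

theorem stepEquiv_symm_apply (p : ℝ × lp E 2) :
    (stepEquiv (E := E)).symm p = mkStep p.1 p.2 := rfl

instance [∀ n, CompleteSpace (E n)] : CompleteSpace (Step E) :=
  (completeSpace_congr (e := (stepEquiv (E := E)).toLinearEquiv.toEquiv)
    (stepEquiv (E := E)).isUniformEmbedding).2 inferInstance

/-- The component `n`, as a continuous linear map. -/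
noncomputable def stepEval (n : ℕ) : Step E →L[ℝ] E n :=
  (lp.evalCLM ℝ E 2 n).comp ((ContinuousLinearMap.snd ℝ ℝ (lp E 2)).comp
    (stepEquiv (E := E)).toContinuousLinearMap)

theorem stepEval_apply (n : ℕ) (x : Step E) : stepEval n x = x.2 n := rfl

/-- The inclusion of `lp E 2`, as a continuous linear map. -/
noncomputable def stepInr : lp E 2 →L[ℝ] Step E :=
  ((stepEquiv (E := E)).symm.toContinuousLinearMap).comp (ContinuousLinearMap.inr ℝ ℝ (lp E 2))

theorem stepInr_apply (μ : lp E 2) : stepInr μ = mkStep 0 μ := rfl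

/-- The embedding of the component `n` preserving `pos`. -/
noncomputable def stepEmb (n : ℕ) : E n →L[ℝ] Step E :=
  ((stepEquiv (E := E)).symm.toContinuousLinearMap).comp
    ((mass : E n →L[ℝ] ℝ).prod (lp.singleContinuousLinearMap ℝ E 2 n))

theorem stepEmb_apply (n : ℕ) (x : E n) :
    stepEmb n x = mkStep (mass x) (lp.single 2 n x) := rfl

theorem posSeq_single (n : ℕ) (x : E n) :
    posSeq (lp.single 2 n x) = lp.single 2 n (pos x) := by
  ext m
  rw [posSeq_apply]
  by_cases h : m = n
  · subst h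
    rw [lp.single_apply_self, lp.single_apply_self]
  · rw [lp.single_apply_ne _ _ _ h, lp.single_apply_ne _ _ _ h, pos_zero]

theorem norm_posSeq_single (n : ℕ) (x : E n) : ‖posSeq (lp.single 2 n x)‖ = pos x := by
  rw [posSeq_single, lp.norm_single (by norm_num), Real.norm_eq_abs, abs_of_nonneg (pos_nonneg x)]

theorem pos_stepEmb (n : ℕ) (x : E n) : pos (stepEmb n x) = pos x := by
  rw [stepEmb_apply, pos_step_def, mkStep_fst, mkStep_snd,
    ← lp.single_neg, norm_posSeq_single, norm_posSeq_single, pos_neg_eq]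
  simp

theorem norm_stepEmb (n : ℕ) (x : E n) : ‖stepEmb n x‖ = ‖x‖ := by
  rw [norm_eq, norm_eq x, ← map_neg, pos_stepEmb, pos_stepEmb]

theorem stepEmb_pt (n : ℕ) :
    stepEmb n (pt : E n) = (pt : Step E) + stepInr (lp.single 2 n (pt : E n)) := by
  rw [stepEmb_apply, stepInr_apply, pt_step_def, mass_pt]
  apply step_ext <;> simp

theorem norm_stepInr_single_pt (n : ℕ) : ‖stepInr (lp.single 2 n (pt : E n))‖ = 2 := by
  rw [norm_eq, ← map_neg, stepInr_apply, stepInr_apply, pos_step_def, pos_step_def]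
  simp only [mkStep_fst, mkStep_snd]
  rw [neg_neg, ← lp.single_neg, norm_posSeq_single, norm_posSeq_single, pos_pt, pos_neg_pt]
  norm_num

end Vale.Agent.Lib.P069
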