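import Vale.Agent.Lib.P069.Amuc
import Vale.Agent.Lib.P069.NotAuc
import Vale.Agent.Lib.P069.Reflexive

/-!
# P069: the tower of step constructions and the final space
-/

namespace Vale.Agent.Lib.P069

/-- A bundled signed space. -/
structure Sp : Type 1 where
  /-- carrier -/
  E : Type
  [g : NormedAddCommGroup E]
  [s : NormedSpace ℝ E]
  [sg : SignedSpace E]

attribute [instance] Sp.g Sp.s Sp.sg

/-- The step construction on bundled spaces. -/
noncomputable def Sp.next (S : ℕ → Sp) : Sp := ⟨Step (fun n => (S n).E)⟩

/-- The spaces of measures on the trees of height `h`. -/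
noncomputable def tower : ℕ → Sp
  | 0 => ⟨ℝ⟩
  | h + 1 => Sp.next (fun _ => tower h)

/-- The final space. -/
abbrev Top : Type := Step (fun n => (tower n).E)

theorem tower_complete (h : ℕ) : CompleteSpace (tower h).E := by
  induction h with
  | zero => exact (inferInstance : CompleteSpace ℝ)
  | succ h ih =>
    have : ∀ _ : ℕ, CompleteSpace (tower h).E := fun _ => ih
    exact (inferInstance : CompleteSpace (Step (fun _ => (tower h).E)))

theorem tower_reflexive (h : ℕ) : Reflexive (tower h).E := by
  induction h with
  | zero => exact reflexive_real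
  | succ h ih => exact reflexive_step (E := fun _ => (tower h).E) (fun _ => ih)

theorem tower_approx (h : ℕ) : Approx (tower h).E := by
  induction h with
  | zero => exact approx_real
  | succ h ih => exact approx_step (E := fun _ => (tower h).E) (fun _ => ih)

theorem tower_flat (h : ℕ) : Flat h (pt : (tower h).E) := by
  induction h with
  | zero => exact trivial
  | succ h ih => exact flat_step (E := fun _ => (tower h).E) h (fun _ => ih)

theorem top_complete : CompleteSpace Top := by
  have : ∀ n : ℕ, CompleteSpace (tower n).E := tower_complete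
  infer_instance

theorem top_reflexive : Reflexive Top :=
  reflexive_step (E := fun n => (tower n).E) tower_reflexive

theorem top_amuc : IsAMUC (fun x : Top => ‖x‖) :=
  isAMUC_of_approx (approx_step (E := fun n => (tower n).E) tower_approx)

theorem top_flat (k : ℕ) : ∃ x : Top, ‖x‖ = 1 ∧ Flat k x :=
  ⟨stepEmb (E := fun n => (tower n).E) k pt, by rw [norm_stepEmb, norm_pt],
    Flat.map _ (norm_stepEmb k) k _ (tower_flat k)⟩

theorem top_not_auc (N : Seminorm ℝ Top) (hN : IsEquivNorm N) : ¬ IsAUC N :=
  not_isAUC_of_flat top_flat N hN

theorem top_infinite : ¬ FiniteDimensional ℝ Top := by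
  obtain ⟨x, _, hx⟩ := top_flat 1
  exact not_finiteDimensional_of_flat x hx

end Vale.Agent.Lib.P069
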